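import Vale.Agent.P092.R3.H423.Zero
import Vale.Agent.P092.R3.H367.Base

/-!
A `*`-isomorphism onto a corner `p M_{n+1}(L(Λ)) p` with `p = v v*`, `v* v = 1`, compressed by `v`
to a `*`-isomorphism onto `L(Λ)`.
-/

set_option linter.all false

open scoped InnerProductSpace
open Filter Topology ContinuousLinearMap

namespace Vale.Agent.P092.H423

open Vale.Agent.P092.H160 Vale.Agent.P092.H160.St Vale.Agent.P092.H367.St

section inl

variable {G : Type} [Group G]

theorem inL_mul {S T : Op G} (hS : InL S) (hT : InL T) : InL (S ∘L T) :=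
  (inL_iff _).mpr (mul_mem ((inL_iff _).mp hS) ((inL_iff _).mp hT))

theorem inL_add {S T : Op G} (hS : InL S) (hT : InL T) : InL (S + T) :=
  (inL_iff _).mpr (add_mem ((inL_iff _).mp hS) ((inL_iff _).mp hT))

theorem inL_adj {S : Op G} (hS : InL S) : InL (adjoint S) := by
  rw [← star_eq_adjoint]
  exact (inL_iff _).mpr (star_mem ((inL_iff _).mp hS))

theorem inL_sum {J : Type} (F : Finset J) {S : J → Op G} (hS : ∀ j ∈ F, InL (S j)) :
    InL (∑ j ∈ F, S j) :=
  (inL_iff _).mpr (sum_mem fun j hj => (inL_iff _).mp (hS j hj))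

end inl

section col

variable {Λ : Type} [Group Λ] {n : ℕ}

theorem sum_row_apply (v : Ell2 (Fin (n + 1) × Λ)) :
    ∑ j : Fin (n + 1), row j (adjoint (row j) v) = v := by
  have h : ∑ j : Fin (n + 1), (row j ∘L adjoint (row j) : Op (Fin (n + 1) × Λ)) = 1 := by
    apply op_ext
    rintro ⟨i, h⟩
    rw [sum_apply, Finset.sum_eq_single i]
    · have e : (dl (i, h) : Ell2 (Fin (n + 1) × Λ)) = row i (dl h) := dl_prod i h
      rw [comp_apply, e, row_adj_row_self_ap]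
      rfl
    · intro j _ hj
      have e : (dl (i, h) : Ell2 (Fin (n + 1) × Λ)) = row i (dl h) := dl_prod i h
      rw [comp_apply, e, row_adj_row_ne_ap hj, map_zero]
    · intro h; exact absurd (Finset.mem_univ _) h
  have h2 := congrArg (fun S : Op (Fin (n + 1) × Λ) => S v) h
  simp only [sum_apply, comp_apply] at h2
  exact h2

theorem vec_ext {u v : Ell2 (Fin (n + 1) × Λ)} (h : ∀ i, adjoint (row i) u = adjoint (row i) v) :
    u = v := by
  rw [← sum_row_apply u, ← sum_row_apply v]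
  exact Finset.sum_congr rfl fun i _ => by rw [h]

/-- Operators into the column space are determined by their entries. -/
theorem col_ext {S T : Ell2 Λ →L[ℂ] Ell2 (Fin (n + 1) × Λ)}
    (h : ∀ i, adjoint (row i) ∘L S = adjoint (row i) ∘L T) : S = T := by
  ext1 v
  exact vec_ext fun i => congrArg (fun A : Op Λ => A v) (h i)

theorem ent_ext {S T : Op (Fin (n + 1) × Λ)} (h : ∀ i j, ent S i j = ent T i j) : S = T := by
  ext1 v
  rw [← sum_row_apply v, map_sum, map_sum]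
  refine Finset.sum_congr rfl fun j _ => ?_
  exact vec_ext fun i => congrArg (fun A : Op Λ => A (adjoint (row j) v)) (h i j)

/-- The column operator with given entries. -/
noncomputable def col (w : Fin (n + 1) → Op Λ) : Ell2 Λ →L[ℂ] Ell2 (Fin (n + 1) × Λ) :=
  ∑ i, row i ∘L w i

theorem row_col (w : Fin (n + 1) → Op Λ) (i : Fin (n + 1)) : adjoint (row i) ∘L col w = w i := by
  ext1 v
  rw [comp_apply, col, sum_apply, map_sum, Finset.sum_eq_single i]
  · rw [comp_apply, row_adj_row_self_ap]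
  · intro j _ hj
    rw [comp_apply, row_adj_row_ne_ap (Ne.symm hj)]
  · intro h; exact absurd (Finset.mem_univ _) h

/-- `V* S W` as a double sum over the entries. -/
theorem sandwich (V W : Ell2 Λ →L[ℂ] Ell2 (Fin (n + 1) × Λ)) (S : Op (Fin (n + 1) × Λ)) :
    adjoint V ∘L S ∘L W = ∑ i, ∑ j, adjoint (adjoint (row i) ∘L V) ∘L ent S i j ∘L
      (adjoint (row j) ∘L W) := by
  ext1 v
  refine ext_inner_left ℂ fun u => ?_
  simp only [sum_apply, comp_apply, inner_sum, ent_apply, adjoint_comp, adjoint_adjoint]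
  rw [adjoint_inner_right]
  have h1 : ∀ i : Fin (n + 1), ∑ j, ⟪u, adjoint V (row i (adjoint (row i)
      (S (row j (adjoint (row j) (W v))))))⟫_ℂ = ⟪V u, row i (adjoint (row i) (S (W v)))⟫_ℂ := by
    intro i
    rw [← inner_sum, ← map_sum, ← map_sum, ← map_sum, ← map_sum, sum_row_apply,
      adjoint_inner_right]
  rw [Finset.sum_congr rfl fun i _ => h1 i, ← inner_sum, sum_row_apply]

theorem inL_sandwich {V W : Ell2 Λ →L[ℂ] Ell2 (Fin (n + 1) × Λ)} {S : Op (Fin (n + 1) × Λ)}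
    (hV : ∀ i, InL (adjoint (row i) ∘L V)) (hW : ∀ i, InL (adjoint (row i) ∘L W))
    (hS : InM S) : InL (adjoint V ∘L S ∘L W) := by
  rw [sandwich]
  exact inL_sum _ fun i _ => inL_sum _ fun j _ =>
    inL_mul (inL_adj (hV i)) (inL_mul (hS i j) (hW j))

theorem inM_one : InM (1 : Op (Fin (n + 1) × Λ)) := by
  intro i j
  have e : ent (1 : Op (Fin (n + 1) × Λ)) i j = if i = j then 1 else 0 := row_adj_row i j
  rw [e]
  split_ifs
  · have := inL_u (1 : Λ)
    rw [st_u, lam_one] at this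
    exact this
  · exact inL_zero

theorem inL_adj_comp {V W : Ell2 Λ →L[ℂ] Ell2 (Fin (n + 1) × Λ)}
    (hV : ∀ i, InL (adjoint (row i) ∘L V)) (hW : ∀ i, InL (adjoint (row i) ∘L W)) :
    InL (adjoint V ∘L W) := by
  have h := inL_sandwich hV hW inM_one
  have e : (1 : Op (Fin (n + 1) × Λ)) ∘L W = W := by
    ext1 v
    rfl
  rw [e] at h
  exact h

theorem ent_outer (V : Ell2 Λ →L[ℂ] Ell2 (Fin (n + 1) × Λ)) (S : Op Λ) (i j : Fin (n + 1)) :
    ent (V ∘L S ∘L adjoint V) i j =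
      (adjoint (row i) ∘L V) ∘L S ∘L adjoint (adjoint (row j) ∘L V) := by
  rw [adjoint_comp, adjoint_adjoint]
  rfl

theorem inM_outer {V : Ell2 Λ →L[ℂ] Ell2 (Fin (n + 1) × Λ)} {S : Op Λ}
    (hV : ∀ i, InL (adjoint (row i) ∘L V)) (hS : InL S) : InM (V ∘L S ∘L adjoint V) := by
  intro i j
  rw [ent_outer]
  exact inL_mul (hV i) (inL_mul hS (inL_adj (hV j)))

end col

section iso

variable {Γ Λ : Type} [Group Γ] [Group Λ] {n : ℕ} {p : Op (Fin (n + 1) × Λ)}

theorem inC_outer {v : Ell2 Λ →L[ℂ] Ell2 (Fin (n + 1) × Λ)}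
    (hv : ∀ i, InL (adjoint (row i) ∘L v)) (hv1 : adjoint v ∘L v = 1) (hv2 : v ∘L adjoint v = p)
    {S : Op Λ} (hS : InL S) : InC p (v ∘L S ∘L adjoint v) := by
  have h1 : ∀ ξ, adjoint v (v ξ) = ξ := fun ξ => congrArg (fun A : Op Λ => A ξ) hv1
  refine ⟨inM_outer hv hS, ?_, ?_⟩
  · rw [← hv2]
    ext1 ξ
    change v (adjoint v (v (S (adjoint v ξ)))) = v (S (adjoint v ξ))
    rw [h1]
  · rw [← hv2]
    ext1 ξ
    change v (S (adjoint v (v (adjoint v ξ)))) = v (S (adjoint v ξ))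
    rw [h1]

theorem outer_inner {v : Ell2 Λ →L[ℂ] Ell2 (Fin (n + 1) × Λ)} (hv2 : v ∘L adjoint v = p)
    {T : Op (Fin (n + 1) × Λ)} (hT : InC p T) :
    v ∘L (adjoint v ∘L T ∘L v) ∘L adjoint v = T := by
  calc v ∘L (adjoint v ∘L T ∘L v) ∘L adjoint v
      = (v ∘L adjoint v) ∘L T ∘L (v ∘L adjoint v) := rfl
    _ = mul p (mul T p) := by rw [hv2]; rfl
    _ = T := by rw [hT.2.2, hT.2.1]

theorem inner_outer {v : Ell2 Λ →L[ℂ] Ell2 (Fin (n + 1) × Λ)} (hv1 : adjoint v ∘L v = 1)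
    (S : Op Λ) : adjoint v ∘L (v ∘L S ∘L adjoint v) ∘L v = S := by
  calc adjoint v ∘L (v ∘L S ∘L adjoint v) ∘L v
      = (adjoint v ∘L v) ∘L S ∘L (adjoint v ∘L v) := rfl
    _ = S := by rw [hv1]; rfl

/-- The compression of a `*`-isomorphism by an isometry with range projection `p`. -/
noncomputable def vIso (θ : AmpIso Γ Λ n p) (v : Ell2 Λ →L[ℂ] Ell2 (Fin (n + 1) × Λ))
    (hv : ∀ i, InL (adjoint (row i) ∘L v)) (hv1 : adjoint v ∘L v = 1)
    (hv2 : v ∘L adjoint v = p) : StarIso Γ Λ where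
  toFun T := adjoint v ∘L θ.toFun T ∘L v
  invFun S := θ.invFun (v ∘L S ∘L adjoint v)
  map_mem T hT := inL_sandwich hv hv (θ.map_mem T hT).1
  inv_mem T hT := θ.inv_mem _ (inC_outer hv hv1 hv2 hT)
  left_inv T hT := by rw [outer_inner hv2 (θ.map_mem T hT), θ.left_inv T hT]
  right_inv T hT := by rw [θ.right_inv _ (inC_outer hv hv1 hv2 hT), inner_outer hv1]
  map_add S T hS hT := by
    rw [θ.map_add S T hS hT]
    ext1 ξ
    change adjoint v ((θ.toFun S + θ.toFun T) (v ξ)) = adjoint v (θ.toFun S (v ξ)) +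
      adjoint v (θ.toFun T (v ξ))
    rw [add_apply, map_add]
  map_smul c S T hS hT h := by
    have h1 := (isSmul_iff' _ _ _).mp (θ.map_smul c S T hS hT h)
    rw [isSmul_iff', h1]
    ext1 ξ
    change adjoint v (c • θ.toFun S (v ξ)) = c • adjoint v (θ.toFun S (v ξ))
    rw [map_smul]
  map_mul S T hS hT := by
    rw [θ.map_mul S T hS hT]
    have h1 : ∀ ξ, v (adjoint v (θ.toFun T ξ)) = θ.toFun T ξ := fun ξ => by
      have h2 : v (adjoint v (θ.toFun T ξ)) = p (θ.toFun T ξ) :=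
        congrArg (fun A : Op (Fin (n + 1) × Λ) => A (θ.toFun T ξ)) hv2
      rw [h2]
      exact congrArg (fun A : Op (Fin (n + 1) × Λ) => A ξ) (θ.map_mem T hT).2.1
    ext1 ξ
    change adjoint v (θ.toFun S (θ.toFun T (v ξ))) =
      adjoint v (θ.toFun S (v (adjoint v (θ.toFun T (v ξ)))))
    rw [h1]
  map_adj S T hS hT h := by
    have h1 := (isAdj_iff' _ _).mp (θ.map_adj S T hS hT h)
    rw [isAdj_iff', h1, adjoint_comp, adjoint_comp, adjoint_adjoint]
    rfl

theorem vIso_apply (θ : AmpIso Γ Λ n p) (v : Ell2 Λ →L[ℂ] Ell2 (Fin (n + 1) × Λ))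
    (hv : ∀ i, InL (adjoint (row i) ∘L v)) (hv1 : adjoint v ∘L v = 1)
    (hv2 : v ∘L adjoint v = p) (T : Op Γ) :
    (vIso θ v hv hv1 hv2).toFun T = adjoint v ∘L θ.toFun T ∘L v := rfl

/-- The canonical form of `θ`, with a column operator. -/
theorem canonAmp_iff (θ : AmpIso Γ Λ n p) : CanonAmp θ ↔
    ∃ (δ : Γ ≃* Λ) (χ : Γ →* Circle) (W : Ell2 Λ →L[ℂ] Ell2 (Fin (n + 1) × Λ)),
      (∀ i, InL (adjoint (row i) ∘L W)) ∧ adjoint W ∘L W = 1 ∧ W ∘L adjoint W = p ∧
      ∀ g, θ.toFun (u g) = (χ g : ℂ) • (W ∘L u (δ g) ∘L adjoint W) := by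
  have hsum : ∀ W : Ell2 Λ →L[ℂ] Ell2 (Fin (n + 1) × Λ), adjoint W ∘L W =
      ∑ i, adjoint (adjoint (row i) ∘L W) ∘L (adjoint (row i) ∘L W) := by
    intro W
    ext1 ξ
    refine ext_inner_left ℂ fun u => ?_
    simp only [sum_apply, comp_apply, inner_sum, adjoint_comp, adjoint_adjoint]
    rw [adjoint_inner_right]
    have h1 : ∀ i : Fin (n + 1), ⟪u, adjoint W (row i (adjoint (row i) (W ξ)))⟫_ℂ =
        ⟪W u, row i (adjoint (row i) (W ξ))⟫_ℂ := fun i => adjoint_inner_right _ _ _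
    rw [Finset.sum_congr rfl fun i _ => h1 i, ← inner_sum, sum_row_apply]
  have hent : ∀ (W : Ell2 Λ →L[ℂ] Ell2 (Fin (n + 1) × Λ)) (i j : Fin (n + 1)),
      ent (W ∘L adjoint W) i j = (adjoint (row i) ∘L W) ∘L adjoint (adjoint (row j) ∘L W) := by
    intro W i j
    rw [adjoint_comp, adjoint_adjoint]
    rfl
  constructor
  · rintro ⟨δ, χ, w, w', h1, h2, h3, h4, h5⟩
    have hw' : ∀ i, w' i = adjoint (w i) := fun i => (isAdj_iff' _ _).mp (h2 i)
    refine ⟨δ, χ, col w, fun i => by rw [row_col]; exact h1 i, ?_, ?_, fun g => ?_⟩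
    · rw [hsum]
      simp only [row_col]
      have e : (∑ i, adjoint (w i) ∘L w i) = ∑ i, mul (w' i) (w i) :=
        Finset.sum_congr rfl fun i _ => by rw [hw' i]; rfl
      rw [e, h3, st_u, lam_one]
    · refine ent_ext fun i j => ?_
      rw [hent, row_col, row_col, h4, hw' j]
      rfl
    · refine ent_ext fun i j => ?_
      rw [ent_smul, ent_outer, row_col, row_col, (isSmul_iff' _ _ _).mp (h5 g i j), hw' j]
      rfl
  · rintro ⟨δ, χ, W, h1, h2, h3, h4⟩
    refine ⟨δ, χ, fun i => adjoint (row i) ∘L W, fun i => adjoint (adjoint (row i) ∘L W), h1,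
      fun i => (isAdj_iff' _ _).mpr rfl, ?_, fun i j => ?_, fun g i j => ?_⟩
    · rw [st_u, lam_one, ← h2, hsum]
      rfl
    · rw [← h3, hent]
      rfl
    · rw [isSmul_iff', h4 g, ent_smul, ent_outer]
      rfl

/-- `θ` is canonical iff its compression is canonical. -/
theorem canonical_vIso_iff (θ : AmpIso Γ Λ n p) (v : Ell2 Λ →L[ℂ] Ell2 (Fin (n + 1) × Λ))
    (hv : ∀ i, InL (adjoint (row i) ∘L v)) (hv1 : adjoint v ∘L v = 1)
    (hv2 : v ∘L adjoint v = p) : St.Canonical (vIso θ v hv hv1 hv2) ↔ CanonAmp θ := by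
  rw [canonAmp_iff]
  constructor
  · rintro ⟨δ, χ, w, w', h1, h2, h3, h4, h5⟩
    have hw' : w' = adjoint w := (isAdj_iff' _ _).mp h2
    subst hw'
    have h3' : w ∘L adjoint w = 1 := by rw [← lam_one]; exact h3
    have h4' : adjoint w ∘L w = 1 := by rw [← lam_one]; exact h4
    refine ⟨δ, χ, v ∘L w, fun i => ?_, ?_, ?_, fun g => ?_⟩
    · rw [← comp_assoc]
      exact inL_mul (hv i) h1
    · calc adjoint (v ∘L w) ∘L (v ∘L w) = adjoint w ∘L (adjoint v ∘L v) ∘L w := by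
            rw [adjoint_comp]; rfl
        _ = adjoint w ∘L w := by rw [hv1]; rfl
        _ = 1 := h4'
    · calc (v ∘L w) ∘L adjoint (v ∘L w) = v ∘L (w ∘L adjoint w) ∘L adjoint v := by
            rw [adjoint_comp]; rfl
        _ = v ∘L adjoint v := by rw [h3']; rfl
        _ = p := hv2
    · have h6 := (isSmul_iff' _ _ _).mp (h5 g)
      rw [vIso_apply] at h6
      calc θ.toFun (u g) = v ∘L (adjoint v ∘L θ.toFun (u g) ∘L v) ∘L adjoint v :=
            (outer_inner hv2 (θ.map_mem _ (inL_u g))).symm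
        _ = v ∘L ((χ g : ℂ) • mul (mul w (u (δ g))) (adjoint w)) ∘L adjoint v := by rw [h6]
        _ = (χ g : ℂ) • ((v ∘L w) ∘L u (δ g) ∘L adjoint (v ∘L w)) := by
            rw [adjoint_comp]
            ext1 ξ
            change v ((χ g : ℂ) • w (u (δ g) (adjoint w (adjoint v ξ)))) =
              (χ g : ℂ) • v (w (u (δ g) (adjoint w (adjoint v ξ))))
            rw [map_smul]
  · rintro ⟨δ, χ, W, h1, h2, h3, h4⟩
    refine ⟨δ, χ, adjoint v ∘L W, adjoint (adjoint v ∘L W), inL_adj_comp hv h1,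
      (isAdj_iff' _ _).mpr rfl, ?_, ?_, fun g => ?_⟩
    · rw [st_u, lam_one]
      calc mul (adjoint v ∘L W) (adjoint (adjoint v ∘L W))
          = adjoint v ∘L (W ∘L adjoint W) ∘L v := by
            rw [adjoint_comp, adjoint_adjoint]; rfl
        _ = (adjoint v ∘L v) ∘L (adjoint v ∘L v) := by rw [h3, ← hv2]; rfl
        _ = 1 := by rw [hv1]; rfl
    · rw [st_u, lam_one]
      calc mul (adjoint (adjoint v ∘L W)) (adjoint v ∘L W)
          = adjoint W ∘L (v ∘L adjoint v) ∘L W := by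
            rw [adjoint_comp, adjoint_adjoint]; rfl
        _ = (adjoint W ∘L W) ∘L (adjoint W ∘L W) := by rw [hv2, ← h3]; rfl
        _ = 1 := by rw [h2]; rfl
    · rw [isSmul_iff', vIso_apply, h4 g, adjoint_comp, adjoint_adjoint]
      ext1 ξ
      change adjoint v ((χ g : ℂ) • W (u (δ g) (adjoint W (v ξ)))) =
        (χ g : ℂ) • adjoint v (W (u (δ g) (adjoint W (v ξ))))
      rw [map_smul]

/-! ### Columns over `L(Λ)` as equivariant operators -/

theorem row_adj_apply (i : Fin (n + 1)) (ζ : Ell2 (Fin (n + 1) × Λ)) (h : Λ) :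
    (adjoint (row i) ζ : Ell2 Λ) h = ζ (i, h) := by
  have e : row i (dl h) = (dl (i, h) : Ell2 (Fin (n + 1) × Λ)) := (dl_prod i h).symm
  rw [← inner_dl, adjoint_inner_right, e, inner_dl]

theorem row_adj_Rr (i : Fin (n + 1)) (s : Λ) (ζ : Ell2 (Fin (n + 1) × Λ)) :
    adjoint (row i) (H367.Rr (Fin (n + 1)) s ζ) = rho s (adjoint (row i) ζ) := by
  apply ext_inner_dl
  intro h
  rw [row_adj_apply, H367.Rr_apply, rho_apply, row_adj_apply]

/-- The entries of a column operator are in `L(Λ)` iff it is equivariant. -/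
theorem col_inL_iff (W : Ell2 Λ →L[ℂ] Ell2 (Fin (n + 1) × Λ)) :
    (∀ i, InL (adjoint (row i) ∘L W)) ↔
      ∀ s v, W (rho s v) = H367.Rr (Fin (n + 1)) s (W v) := by
  have key : ∀ i, InL (adjoint (row i) ∘L W) ↔
      ∀ s v, adjoint (row i) (W (rho s v)) = adjoint (row i) (H367.Rr (Fin (n + 1)) s (W v)) := by
    intro i
    rw [inL_iff, mem_LG_iff]
    constructor
    · intro h s v
      rw [row_adj_Rr]
      exact h.apply s v
    · intro h s
      ext1 v
      have h1 := h s v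
      rw [row_adj_Rr] at h1
      exact h1
  constructor
  · intro h s v
    exact vec_ext fun i => (key i).mp (h i) s v
  · intro h i
    exact (key i).mpr fun s v => by rw [h]

/-- The canonical form from an equivariant isometry. -/
theorem canonAmp_of (θ : AmpIso Γ Λ n p) (δ : Γ ≃* Λ) (χ : Γ →* Circle)
    (w : Ell2 Λ →L[ℂ] Ell2 (Fin (n + 1) × Λ))
    (hw : ∀ s v, w (rho s v) = H367.Rr (Fin (n + 1)) s (w v)) (h1 : adjoint w ∘L w = 1)
    (h2 : w ∘L adjoint w = p)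
    (h3 : ∀ g, θ.toFun (u g) = (χ g : ℂ) • (w ∘L lam (δ g) ∘L adjoint w)) : CanonAmp θ :=
  (canonAmp_iff θ).mpr ⟨δ, χ, w, (col_inL_iff w).mpr hw, h1, h2, h3⟩

/-- The equivariant isometry of a canonical form. -/
theorem canonAmp_exists (θ : AmpIso Γ Λ n p) (h : CanonAmp θ) :
    ∃ (δ : Γ ≃* Λ) (χ : Γ →* Circle) (w : Ell2 Λ →L[ℂ] Ell2 (Fin (n + 1) × Λ)),
      (∀ s v, w (rho s v) = H367.Rr (Fin (n + 1)) s (w v)) ∧ adjoint w ∘L w = 1 ∧
      w ∘L adjoint w = p ∧
      ∀ g, θ.toFun (u g) = (χ g : ℂ) • (w ∘L lam (δ g) ∘L adjoint w) := by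
  obtain ⟨δ, χ, w, h1, h2, h3, h4⟩ := (canonAmp_iff θ).mp h
  exact ⟨δ, χ, w, (col_inL_iff w).mp h1, h2, h3, h4⟩

theorem tr_mul_comm {S T : Op Λ} (hS : InL S) (hT : InL T) :
    St.tr (mul S T) = St.tr (mul T S) :=
  regRep_rho.trace_comm (mem_LG_iff.mp ((inL_iff _).mp hS)) (mem_LG_iff.mp ((inL_iff _).mp hT))

/-- A canonical isomorphism is onto a corner of trace one. -/
theorem trM_of_canonAmp (θ : AmpIso Γ Λ n p) (h : CanonAmp θ) : trM p = 1 := by
  obtain ⟨δ, χ, w, w', h1, h2, h3, h4, h5⟩ := h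
  have hw' : ∀ i, InL (w' i) := fun i => by
    rw [(isAdj_iff' _ _).mp (h2 i)]
    exact inL_adj (h1 i)
  have htr : ∀ (F : Finset (Fin (n + 1))) (S : Fin (n + 1) → Op Λ),
      St.tr (∑ i ∈ F, S i) = ∑ i ∈ F, St.tr (S i) := by
    intro F S
    change ⟪(dl 1 : Ell2 Λ), (∑ i ∈ F, S i) (dl 1)⟫_ℂ = _
    rw [sum_apply, inner_sum]
    rfl
  unfold trM
  calc ∑ i, St.tr (ent p i i) = ∑ i, St.tr (mul (w' i) (w i)) :=
        Finset.sum_congr rfl fun i _ => by rw [h4, tr_mul_comm (h1 i) (hw' i)]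
    _ = St.tr (u (1 : Λ)) := by rw [← htr, h3]
    _ = 1 := by
        classical
        rw [tr_u (1 : Λ)]
        exact if_pos rfl

end iso

end Vale.Agent.P092.H423
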