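import Vale.Agent.P092.H885.KDefs

/-!
Relative Kazhdan pairs.
-/

namespace Vale.Agent.P092.H423

open Vale.Agent.P092.H885

/-- `(Q, ε)` is a Kazhdan pair of `G` relative to the subgroup `A`: in every unitary
representation of `G` without nonzero `A`-invariant vectors every vector `v` is moved by at least
`ε ‖v‖` by some element of `Q`. (For `A = ⊤` these are the Kazhdan pairs of `G`.) -/
def IsRelKazhdanPair (G : Type) [Group G] (A : Subgroup G) (Q : Finset G) (ε : ℝ) : Prop :=
  0 < ε ∧ ∀ (H : Type) [NormedAddCommGroup H] [InnerProductSpace ℂ H] [CompleteSpace H]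
    (π : URep G H), (∀ v, (∀ a ∈ A, π.act a v = v) → v = 0) →
    ∀ v, ∃ s ∈ Q, ε * ‖v‖ ≤ ‖π.act s v - v‖

end Vale.Agent.P092.H423
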