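import Vale.Agent.P092.R3.H367.StMat
import Vale.Agent.P092.R3.H423.StSub

/-!
Definitions used in the statement about heights and subgroups, in elementary form.
-/

namespace Vale.Agent.P092.H367.Mt

open Vale.Agent.P092.H160 Vale.Agent.P092.H160.St Vale.Agent.P092.H885 Vale.Agent.P092.H423

/-- The height `sup_{i,j,s} |τ(A_ij u_s*)|` of a matrix over `L(Λ)`. -/
noncomputable def height {n : ℕ} {Λ : Type} [Group Λ] (A : Mat n Λ) : ℝ :=
  ⨆ q : Fin (n + 1) × Fin (n + 1) × Λ, ‖St.tr (mul (A q.1 q.2.1) (u q.2.2⁻¹))‖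

/-- The heights vanish on average along `x`: the averages of the heights of `θ(u_x)`, …,
`θ(u_{x^M})` tend to `0`. -/
def HV {Γ Λ : Type} [Group Γ] [Group Λ] {n : ℕ} {p : Mat n Λ} (θ : AmpIso Γ Λ n p) (x : Γ) :
    Prop :=
  Filter.Tendsto (fun M : ℕ => (∑ i ∈ Finset.range M, height (θ.toFun (u (x ^ (i + 1))))) / M)
    Filter.atTop (nhds 0)

/-- Decay along a group `H` with a homomorphism `φ : H → Γ` (for example a subgroup of `Γ`),
relative to a subgroup `A` of `H`. For every Kazhdan pair `(Q, ε)` of `H` relative to `A` the fourth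
power sums `F(g)` of `θ(u_g)` satisfy `F(φ(s)) ≤ F(1)(1 - ε²/2)` for some `s ∈ Q` and
`A_Q^k[h ↦ F(a φ(h) b)](1) ≤ F(1)(1 - ε²/(4|Q|))^k` for all `a`, `b` in `Γ`, and for every finite
generating set `Q` of `H` these averages tend to zero (note `F(1) = four p`). -/
def SubDecay {Γ Λ : Type} [Group Γ] [Group Λ] {n : ℕ} {p : Mat n Λ} (θ : AmpIso Γ Λ n p)
    {H : Type} [Group H] (φ : H →* Γ) (A : Subgroup H) : Prop :=
  (∀ (Q : Finset H) (ε : ℝ), IsRelKazhdanPair H A Q ε →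
    (∃ s ∈ Q, four (θ.toFun (u (φ s))) ≤ four p * (1 - ε ^ 2 / 2)) ∧
    ∀ (a b : Γ) (k : ℕ), (avg Q)^[k] (fun h : H => four (θ.toFun (u (a * φ h * b)))) 1 ≤
      four p * (1 - ε ^ 2 / (4 * Q.card)) ^ k) ∧
  ∀ Q : Finset H, Q.Nonempty → Subgroup.closure (Q : Set H) = ⊤ → ∀ a b : Γ,
    Filter.Tendsto (fun k : ℕ => (avg Q)^[k] (fun h : H => four (θ.toFun (u (a * φ h * b)))) 1)
      Filter.atTop (nhds 0)

/-- Decay with explicit constants along `x, y, a, b`, for all `y`, `a`, `b` in `Γ` and `m ≥ 3` which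
satisfy with `x` the relations of two translations `x`, `y` and two shears `a`, `b` of `ℤ²`:
`xy = yx`, `ax = xa`, `ay = yxᵐa`, `by = yb`, `bx = xyᵐb`. For every finite set `Q` containing the four
elements, `F(s) ≤ F(1)(1 - 1/(32m²))` for some `s ∈ Q` and
`A_Q^k[g ↦ F(cgd)](1) ≤ F(1)(1 - 1/(64m²|Q|))^k` for all `c`, `d` in `Γ`. -/
def ShearDecay {Γ Λ : Type} [Group Γ] [Group Λ] {n : ℕ} {p : Mat n Λ} (θ : AmpIso Γ Λ n p)
    (x : Γ) : Prop :=
  ∀ (m : ℕ) (y a b : Γ), 3 ≤ m → x * y = y * x → a * x = x * a → a * y = y * x ^ m * a →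
    b * y = y * b → b * x = x * y ^ m * b → ∀ Q : Finset Γ, x ∈ Q → y ∈ Q → a ∈ Q → b ∈ Q →
    (∃ s ∈ Q, four (θ.toFun (u s)) ≤ four p * (1 - 1 / (32 * m ^ 2))) ∧
    ∀ (c d : Γ) (k : ℕ), (avg Q)^[k] (fun g => four (θ.toFun (u (c * g * d)))) 1 ≤
      four p * (1 - 1 / (64 * m ^ 2 * Q.card)) ^ k

end Vale.Agent.P092.H367.Mt
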