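import Vale.Agent.P092.R3.H423.Sub

/-!
Decay of the fourth power sums along the random walks of a group with a homomorphism to `Γ`.
-/

set_option linter.all false

open scoped InnerProductSpace
open Filter Topology ContinuousLinearMap

namespace Vale.Agent.P092.H423

open Vale.Agent.P092.H160 Vale.Agent.P092.H885 Vale.Agent.P092.H367

/-! ### The representation of a group with a homomorphism -/

section rep

variable {Γ : Type} [Group Γ] {E : Type} [NormedAddCommGroup E] [InnerProductSpace ℂ E]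
  {v : Γ → E} (hv : ∀ g h k : Γ, ⟪v (g * h), v (g * k)⟫_ℂ = ⟪v h, v k⟫_ℂ) {G : Type} [Group G] (φ : G →* Γ)

/-- the representation -/
noncomputable def repF : G →* (HC v →L[ℂ] HC v) := (piC hv).comp φ

theorem repF_apply (h : G) : repF hv φ h = piC hv (φ h) := rfl

theorem repF_adj (h : G) : adjoint (repF hv φ h) = repF hv φ h⁻¹ := by
  rw [repF_apply, repF_apply, map_inv]
  exact piC_adj hv (φ h)

/-- the same as a unitary representation -/
noncomputable def urepF : URep G (HC v) where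
  act g w := repF hv φ g w
  act_add g w z := map_add _ _ _
  act_smul g c w := map_smul _ _ _
  norm_act g w := H885.u_norm (repF_adj hv φ) g w
  act_one w := congrArg (fun L : HC v →L[ℂ] HC v => L w) (repF hv φ).map_one
  act_mul g h w := congrArg (fun L : HC v →L[ℂ] HC v => L w) ((repF hv φ).map_mul g h)

theorem coeffF (a b : Γ) (Q : Finset G) (k : ℕ) :
    (avg Q)^[k] (fun h : G => (⟪v 1, v (a * φ h * b)⟫_ℂ).re) 1 =
      (⟪piC hv a⁻¹ (vc v 1), (av (repF hv φ) Q)^[k] (piC hv b (vc v 1))⟫_ℂ).re := by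
  have h1 : (fun h : G => (⟪v 1, v (a * φ h * b)⟫_ℂ).re) =
      fun h => (⟪piC hv a⁻¹ (vc v 1), repF hv φ h (piC hv b (vc v 1))⟫_ℂ).re := by
    funext h
    have e0 : piC hv (a * φ h * b) (vc v 1) = piC hv a (piC hv (φ h) (piC hv b (vc v 1))) := by
      have e1 := congrArg (fun L : HC v →L[ℂ] HC v => L (vc v 1)) ((piC hv).map_mul (a * φ h) b)
      have e2 := congrArg (fun L : HC v →L[ℂ] HC v => L (piC hv b (vc v 1)))
        ((piC hv).map_mul a (φ h))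
      exact e1.trans e2
    rw [← coeff_vc hv, e0, repF_apply]
    have hπ := piC_adj hv
    have e3 := u_left hπ a⁻¹ (vc v 1) (piC hv (φ h) (piC hv b (vc v 1)))
    rw [inv_inv] at e3
    rw [e3]
  rw [h1, avg_iter]
  have h3 : repF hv φ 1 ((av (repF hv φ) Q)^[k] (piC hv b (vc v 1))) =
      (av (repF hv φ) Q)^[k] (piC hv b (vc v 1)) := by rw [map_one]; rfl
  change (⟪piC hv a⁻¹ (vc v 1), repF hv φ 1 ((av (repF hv φ) Q)^[k] (piC hv b (vc v 1)))⟫_ℂ).re = _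
  rw [h3]

variable {φ} {A : Subgroup G} (hno : ∀ η : HC v, (∀ g ∈ A, piC hv (φ g) η = η) → η = 0)

include hno

theorem gapF {Q : Finset G} {ε : ℝ} (hK : IsRelKazhdanPair G A Q ε) (w : HC v) :
    ∃ s ∈ Q, ε * ‖w‖ ≤ ‖repF hv φ s w - w‖ :=
  hK.2 (HC v) (urepF hv φ) (fun w hw => hno w hw) w

theorem quantF {Q : Finset G} {ε : ℝ} (hK : IsRelKazhdanPair G A Q ε) (a b : Γ) (k : ℕ) :
    (avg Q)^[k] (fun h : G => (⟪v 1, v (a * φ h * b)⟫_ℂ).re) 1 ≤
      ‖v 1‖ ^ 2 * (1 - ε ^ 2 / (4 * Q.card)) ^ k := by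
  have hπ := repF_adj hv φ
  obtain ⟨s, hs, -⟩ := gapF hv hno hK (vc v 1)
  have hQ : Q.Nonempty := ⟨s, hs⟩
  rw [coeffF hv φ]
  have h2 := gap_norm hπ hK.1.le hQ ⊤ (fun g w _ => Submodule.mem_top)
    (fun w _ => gapF hv hno hK w) (Submodule.mem_top (x := piC hv b (vc v 1))) k
  have hπΓ := piC_adj hv
  rw [H885.u_norm hπΓ, norm_vc] at h2
  calc _ ≤ ‖⟪piC hv a⁻¹ (vc v 1), (av (repF hv φ) Q)^[k] (piC hv b (vc v 1))⟫_ℂ‖ :=
        Complex.re_le_norm _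
    _ ≤ ‖piC hv a⁻¹ (vc v 1)‖ * ‖(av (repF hv φ) Q)^[k] (piC hv b (vc v 1))‖ :=
        inner_bd (H := HC v) _ _
    _ ≤ ‖v 1‖ * ((1 - ε ^ 2 / (4 * Q.card)) ^ k * ‖v 1‖) := by
        rw [H885.u_norm hπΓ, norm_vc]
        gcongr
    _ = _ := by ring

theorem oneF {Q : Finset G} {ε : ℝ} (hK : IsRelKazhdanPair G A Q ε) :
    ∃ s ∈ Q, (⟪v 1, v (φ s)⟫_ℂ).re ≤ ‖v 1‖ ^ 2 * (1 - ε ^ 2 / 2) := by
  have hπ := repF_adj hv φ
  obtain ⟨s, hs, h2⟩ := gapF hv hno hK (vc v 1)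
  refine ⟨s, hs, ?_⟩
  have h3 := norm_sub_sq (𝕜 := ℂ) (repF hv φ s (vc v 1)) (vc v 1)
  rw [H885.u_norm hπ, norm_vc] at h3
  have h4 : (⟪repF hv φ s (vc v 1), vc v 1⟫_ℂ).re = (⟪v 1, v (φ s)⟫_ℂ).re := by
    have h7 : (⟪repF hv φ s (vc v 1), vc v 1⟫_ℂ).re =
        (⟪vc v 1, repF hv φ s (vc v 1)⟫_ℂ).re := inner_cs (H := HC v) _ _
    rw [h7, repF_apply, coeff_vc]
  have h5 : ‖repF hv φ s (vc v 1) - vc v 1‖ ^ 2 =
      ‖v 1‖ ^ 2 - 2 * (⟪repF hv φ s (vc v 1), vc v 1⟫_ℂ).re + ‖v 1‖ ^ 2 := h3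
  rw [norm_vc] at h2
  have h6 : (ε * ‖v 1‖) ^ 2 ≤ ‖repF hv φ s (vc v 1) - vc v 1‖ ^ 2 :=
    pow_le_pow_left₀ (by have := hK.1; positivity) h2 2
  rw [h5, h4] at h6
  nlinarith

theorem softF {Q : Finset G} (hQ : Q.Nonempty) (hgen : Subgroup.closure (Q : Set G) = ⊤)
    (a b : Γ) :
    Tendsto (fun k : ℕ => (avg Q)^[k] (fun h : G => (⟪v 1, v (a * φ h * b)⟫_ℂ).re) 1)
      atTop (𝓝 0) := by
  have hπ := repF_adj hv φ
  have h3 := soft_norm hπ hQ hgen (ξ := piC hv b (vc v 1)) (fun η hη => by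
    have : η = 0 := hno η fun g _ => hη g
    rw [this, inner_zero_left])
  have h4 : Tendsto (fun k : ℕ =>
      (⟪piC hv a⁻¹ (vc v 1), (av (repF hv φ) Q)^[k] (piC hv b (vc v 1))⟫_ℂ).re) atTop
      (𝓝 (⟪piC hv a⁻¹ (vc v 1), (0 : HC v)⟫_ℂ).re) :=
    (Complex.continuous_re.tendsto _).comp (tendsto_const_nhds.inner h3)
  rw [inner_zero_right, Complex.zero_re] at h4
  refine h4.congr fun k => ?_
  rw [coeffF hv φ]

end rep

/-! ### Decay along a homomorphism -/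

section dec

variable {I Λ Γ : Type} [Fintype I] [Group Λ] [Group Γ]
  {p : Ell2 (I × Λ) →L[ℂ] Ell2 (I × Λ)} {α : Γ → (Ell2 (I × Λ) →L[ℂ] Ell2 (I × Λ))}

/-- Decay along the random walks of `G` if there is no nonzero operator intertwining on the image
of the subgroup `A` of `G`. -/
theorem decay_hom (hα : AFrame p α) {G : Type} [Group G] (φ : G →* Γ) {A : Subgroup G}
    (hno : ∀ T, ItwH α (A.map φ) T → T = 0) :
    (∀ (Q : Finset G) (ε : ℝ), IsRelKazhdanPair G A Q ε →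
      (∃ s ∈ Q, f4 (α (φ s)) ≤ f4 p * (1 - ε ^ 2 / 2)) ∧
      ∀ (a b : Γ) (k : ℕ), (avg Q)^[k] (fun h : G => f4 (α (a * φ h * b))) 1 ≤
        f4 p * (1 - ε ^ 2 / (4 * Q.card)) ^ k) ∧
    (∀ Q : Finset G, Q.Nonempty → Subgroup.closure (Q : Set G) = ⊤ → ∀ a b : Γ,
      Tendsto (fun k : ℕ => (avg Q)^[k] (fun h : G => f4 (α (a * φ h * b))) 1) atTop (𝓝 0)) := by
  have hv := gramT hα
  have hz : ∀ b : Γ, ∀ ε > (0 : ℝ), ∃ c : (A.map φ : Subgroup Γ) →₀ ℂ,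
      (c.sum fun _ a => a) = 1 ∧
      ‖Finsupp.linearCombination ℂ (fun g : (A.map φ : Subgroup Γ) =>
        vT α (g * b)) c‖ ≤ ε := by
    intro b
    have h0 := (itwA_or_zero hα (A.map φ) b).resolve_left (by
      rintro ⟨T, hT, hne⟩
      exact hne (hno T hT))
    exact smallA (A.map φ) b h0
  have hn : ∀ η : HC (vT α), (∀ g ∈ A, piC hv (φ g) η = η) → η = 0 := by
    intro η hη
    refine no_inv hv (A.map φ) hz ?_
    rintro _ ⟨g, hg, rfl⟩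
    exact hη g hg
  have h1 : ∀ g, f4 (α g) = (⟪vT α 1, vT α g⟫_ℂ).re := fun g => by
    rw [vT, vT, coeff_f4 hα, Complex.ofReal_re]
  have h2 : f4 p = ‖vT α 1‖ ^ 2 := (norm_Tg_one hα).symm
  simp only [h1, h2]
  refine ⟨fun Q ε hK => ⟨?_, fun a b k => ?_⟩, fun Q hQ hgen a b => ?_⟩
  · exact oneF hv hn hK
  · exact quantF hv hn hK a b k
  · exact softF hv hn hQ hgen a b

end dec

end Vale.Agent.P092.H423
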