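import Vale.Agent.P092.H885.KDefs

/-!
A finite index subgroup of a group with a Kazhdan pair has a Kazhdan pair (induction of
representations).
-/

set_option linter.all false

namespace Vale.Agent.P092.H423

open Vale.Agent.P092.H885

section ind

variable {G : Type} [Group G] (Γ : Subgroup G)

/-- A representative of a coset. -/
noncomputable def rep (c : G ⧸ Γ) : G := Quotient.out c

theorem rep_spec (c : G ⧸ Γ) : ((rep Γ c : G) : G ⧸ Γ) = c := QuotientGroup.out_eq' c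

theorem coc_mem (g : G) (c : G ⧸ Γ) : (rep Γ (g • c))⁻¹ * (g * rep Γ c) ∈ Γ := by
  rw [← QuotientGroup.eq, rep_spec]
  nth_rewrite 1 [← rep_spec Γ c]
  rfl

/-- The cocycle of the action on the cosets. -/
noncomputable def coc (g : G) (c : G ⧸ Γ) : Γ := ⟨(rep Γ (g • c))⁻¹ * (g * rep Γ c), coc_mem Γ g c⟩

theorem coc_mul (g h : G) (c : G ⧸ Γ) : coc Γ (g * h) c = coc Γ g (h • c) * coc Γ h c := by
  apply Subtype.ext
  change (rep Γ ((g * h) • c))⁻¹ * (g * h * rep Γ c) =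
    (rep Γ (g • h • c))⁻¹ * (g * rep Γ (h • c)) * ((rep Γ (h • c))⁻¹ * (h * rep Γ c))
  rw [mul_smul]
  group

theorem coc_one (c : G ⧸ Γ) : coc Γ 1 c = 1 := by
  apply Subtype.ext
  change (rep Γ ((1 : G) • c))⁻¹ * (1 * rep Γ c) = 1
  rw [one_smul, one_mul, inv_mul_cancel]

/-- Every element of the subgroup is a value of the cocycle at an element fixing the coset. -/
theorem exists_coc (c : G ⧸ Γ) (γ : Γ) : ∃ g : G, g • c = c ∧ coc Γ g c = γ := by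
  have h1 : (rep Γ c * γ * (rep Γ c)⁻¹) • c = c := by
    have h2 : (rep Γ c * γ * (rep Γ c)⁻¹) • c =
        ((rep Γ c * γ * (rep Γ c)⁻¹ * rep Γ c : G) : G ⧸ Γ) := by
      nth_rewrite 3 [← rep_spec Γ c]
      rfl
    rw [h2, inv_mul_cancel_right]
    nth_rewrite 2 [← rep_spec Γ c]
    rw [eq_comm, QuotientGroup.eq, inv_mul_cancel_left]
    exact γ.2
  refine ⟨_, h1, ?_⟩
  apply Subtype.ext
  change (rep Γ ((rep Γ c * γ * (rep Γ c)⁻¹) • c))⁻¹ * (rep Γ c * γ * (rep Γ c)⁻¹ * rep Γ c) = γ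
  rw [h1]
  group

variable {H : Type} [NormedAddCommGroup H] [InnerProductSpace ℂ H]

variable [Fintype (G ⧸ Γ)]

/-- The induced representation. -/
noncomputable def indRep (π : URep Γ H) : URep G (PiLp 2 (fun _ : G ⧸ Γ => H)) where
  act g F := WithLp.toLp 2 fun c => π.act (coc Γ g (g⁻¹ • c)) (F (g⁻¹ • c))
  act_add g v w := by
    ext c
    exact π.act_add _ _ _
  act_smul g a v := by
    ext c
    exact π.act_smul _ _ _
  norm_act g v := by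
    have h : ‖(WithLp.toLp 2 fun c => π.act (coc Γ g (g⁻¹ • c)) (v (g⁻¹ • c)) :
        PiLp 2 (fun _ : G ⧸ Γ => H))‖ ^ 2 = ‖v‖ ^ 2 := by
      rw [PiLp.norm_sq_eq_of_L2, PiLp.norm_sq_eq_of_L2]
      change ∑ c, ‖π.act (coc Γ g (g⁻¹ • c)) (v (g⁻¹ • c))‖ ^ 2 = _
      simp only [π.norm_act]
      exact Equiv.sum_comp (MulAction.toPerm (g⁻¹ : G)) (fun c : G ⧸ Γ => ‖v c‖ ^ 2)
    exact (pow_left_inj₀ (norm_nonneg _) (norm_nonneg _) two_ne_zero).mp h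
  act_one v := by
    ext c
    change π.act (coc Γ 1 ((1 : G)⁻¹ • c)) (v ((1 : G)⁻¹ • c)) = v c
    rw [coc_one, π.act_one, inv_one, one_smul]
  act_mul g h v := by
    ext c
    change π.act (coc Γ (g * h) ((g * h)⁻¹ • c)) (v ((g * h)⁻¹ • c)) =
      π.act (coc Γ g (g⁻¹ • c)) (π.act (coc Γ h (h⁻¹ • g⁻¹ • c)) (v (h⁻¹ • g⁻¹ • c)))
    rw [← π.act_mul]
    have e : (g * h)⁻¹ • c = h⁻¹ • g⁻¹ • c := by rw [mul_inv_rev, mul_smul]
    rw [e, coc_mul, smul_inv_smul]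

theorem indRep_apply (π : URep Γ H) (g : G) (F : PiLp 2 (fun _ : G ⧸ Γ => H)) (c : G ⧸ Γ) :
    (indRep Γ π).act g F c = π.act (coc Γ g (g⁻¹ • c)) (F (g⁻¹ • c)) := rfl

theorem indRep_inv (π : URep Γ H) (hπ : ∀ v, (∀ g, π.act g v = v) → v = 0)
    (F : PiLp 2 (fun _ : G ⧸ Γ => H)) (hF : ∀ g, (indRep Γ π).act g F = F) : F = 0 := by
  ext c
  refine hπ _ fun γ => ?_
  obtain ⟨g, hg, hγ⟩ := exists_coc Γ c γ
  have hg' : g⁻¹ • c = c := by rw [inv_smul_eq_iff, hg]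
  have h1 : (indRep Γ π).act g F c = F c := by rw [hF g]
  rw [indRep_apply, hg', hγ] at h1
  exact h1

end ind

/-- A finite index subgroup of a group with a Kazhdan pair has a Kazhdan pair, with the same
constant. -/
theorem kazhdan_fi' {G : Type} [Group G] {Q : Finset G} {ε : ℝ} (h : IsKazhdanPair G Q ε)
    (Γ : Subgroup G) [Γ.FiniteIndex] : ∃ Q' : Finset Γ, IsKazhdanPair Γ Q' ε := by
  classical
  haveI : Fintype (G ⧸ Γ) := Γ.fintypeQuotientOfFiniteIndex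
  refine ⟨(Q ×ˢ (Finset.univ : Finset (G ⧸ Γ))).image fun q => coc Γ q.1 (q.1⁻¹ • q.2), h.1, ?_⟩
  intro H _ _ _ π hπ v
  have h1 := h.2 (PiLp 2 (fun _ : G ⧸ Γ => H)) (indRep Γ π) (indRep_inv Γ π hπ)
    (WithLp.toLp 2 fun _ => v)
  obtain ⟨s, hs, h2⟩ := h1
  by_contra hcon
  push Not at hcon
  have h3 : ∀ c : G ⧸ Γ, ‖π.act (coc Γ s (s⁻¹ • c)) v - v‖ < ε * ‖v‖ := fun c =>
    hcon _ (Finset.mem_image.mpr ⟨(s, c), Finset.mem_product.mpr ⟨hs, Finset.mem_univ _⟩, rfl⟩)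
  have h4 := pow_le_pow_left₀ (mul_nonneg h.1.le (norm_nonneg _)) h2 2
  rw [mul_pow, PiLp.norm_sq_eq_of_L2, PiLp.norm_sq_eq_of_L2, Finset.mul_sum] at h4
  refine absurd h4 (not_le.mpr (Finset.sum_lt_sum_of_nonempty ⟨((1 : G) : G ⧸ Γ),
    Finset.mem_univ _⟩ fun c _ => ?_))
  change ‖π.act (coc Γ s (s⁻¹ • c)) v - v‖ ^ 2 < ε ^ 2 * ‖v‖ ^ 2
  rw [← mul_pow]
  exact pow_lt_pow_left₀ (h3 c) (norm_nonneg _) two_ne_zero

theorem kazhdan_fi {G : Type} [Group G] (h : ∃ (Q : Finset G) (ε : ℝ), IsKazhdanPair G Q ε)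
    (Γ : Subgroup G) [Γ.FiniteIndex] : ∃ (Q : Finset Γ) (ε : ℝ), IsKazhdanPair Γ Q ε := by
  obtain ⟨Q, ε, hQ⟩ := h
  obtain ⟨Q', hQ'⟩ := kazhdan_fi' hQ Γ
  exact ⟨Q', ε, hQ'⟩

end Vale.Agent.P092.H423
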