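import Vale.Agent.P092.R3.H367.Base

/-!
Common facts on bounded cubic intertwiners of an amplified frame of an ICC group: `T* A3(y) T`
vanishes off the diagonal, and `T* T` is a positive multiple of `p`.
-/

set_option linter.all false

open scoped InnerProductSpace
open Filter Topology ContinuousLinearMap

namespace Vale.Agent.P092.H423

open Vale.Agent.P092.H160 Vale.Agent.P092.H367

/-! ### The family of vectors of an equivariant operator -/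

section vec

variable {I Λ : Type} [Fintype I] [Group Λ]
variable {K : Type} [NormedAddCommGroup K] [InnerProductSpace ℂ K] [CompleteSpace K]

/-- The family of vectors `T δ_(i,1)`. -/
noncomputable def vc : (Ell2 (I × Λ) →L[ℂ] K) →ₗ[ℂ] PiLp 2 (fun _ : I => K) where
  toFun T := WithLp.toLp 2 fun i => T (dl (i, 1))
  map_add' S T := rfl
  map_smul' c T := rfl

theorem vc_apply (T : Ell2 (I × Λ) →L[ℂ] K) (i : I) : vc T i = T (dl (i, 1)) := rfl

theorem inner_vc (S T : Ell2 (I × Λ) →L[ℂ] K) : ⟪vc S, vc T⟫_ℂ = hs S T := by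
  rw [PiLp.inner_apply]
  rfl

theorem norm_vc (T : Ell2 (I × Λ) →L[ℂ] K) : ‖vc T‖ ^ 2 = hsn T := by
  have h := inner_vc T T
  rw [inner_self_eq_norm_sq_to_K, hs_self] at h
  refine Complex.ofReal_injective ?_
  rw [← h]
  push_cast
  rfl

theorem hs_conj (S T : Ell2 (I × Λ) →L[ℂ] K) : (starRingEnd ℂ) (hs S T) = hs T S := by
  rw [← inner_vc, ← inner_vc, inner_conj_symm]

end vec

/-! ### Weak convergence to zero -/

section weak

variable {X Y ι : Type}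

theorem tendsto_inner_zero {w : ι → Ell2 X} {C : ℝ} (hC : 0 ≤ C) (hw : ∀ y, ‖w y‖ ≤ C)
    (h : ∀ a, Tendsto (fun y => ⟪(dl a : Ell2 X), w y⟫_ℂ) cofinite (𝓝 0)) (u : Ell2 X) :
    Tendsto (fun y => ⟪u, w y⟫_ℂ) cofinite (𝓝 0) := by
  have hs : ∀ s : Finset X, ∀ c : X → ℂ,
      Tendsto (fun y => ⟪∑ a ∈ s, c a • (dl a : Ell2 X), w y⟫_ℂ) cofinite (𝓝 0) := by
    intro s c
    simp only [sum_inner, inner_smul_left]
    have : Tendsto (fun y => ∑ a ∈ s, (starRingEnd ℂ) (c a) * ⟪(dl a : Ell2 X), w y⟫_ℂ)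
        cofinite (𝓝 (∑ a ∈ s, (starRingEnd ℂ) (c a) * 0)) :=
      tendsto_finsetSum s fun a _ => (h a).const_mul _
    simpa using this
  rw [Metric.tendsto_nhds]
  intro ε hε
  have h1 := (hasSum_dl u).eventually (Metric.ball_mem_nhds u (ε := ε / (2 * (C + 1)))
    (by positivity))
  obtain ⟨s, hs'⟩ := h1.exists
  have h2 := (Metric.tendsto_nhds.mp (hs s fun a => u a)) (ε / 2) (by positivity)
  filter_upwards [h2] with x hx
  rw [dist_zero_right] at hx ⊢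
  have h3 : ⟪u, w x⟫_ℂ = ⟪u - ∑ a ∈ s, u a • (dl a : Ell2 X), w x⟫_ℂ +
      ⟪∑ a ∈ s, u a • (dl a : Ell2 X), w x⟫_ℂ := by
    rw [← inner_add_left, sub_add_cancel]
  rw [h3]
  have hs'' : ‖u - ∑ a ∈ s, u a • (dl a : Ell2 X)‖ < ε / (2 * (C + 1)) := by
    rw [← dist_eq_norm, dist_comm]
    exact hs'
  have h4 : ‖⟪u - ∑ a ∈ s, u a • (dl a : Ell2 X), w x⟫_ℂ‖ ≤ ε / 2 := by
    calc ‖⟪u - ∑ a ∈ s, u a • (dl a : Ell2 X), w x⟫_ℂ‖
        ≤ ‖u - ∑ a ∈ s, u a • (dl a : Ell2 X)‖ * ‖w x‖ := norm_inner_le_norm _ _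
      _ ≤ ε / (2 * (C + 1)) * (C + 1) := by
          have := hw x
          gcongr
          linarith
      _ = ε / 2 := by field_simp
  calc _ ≤ ‖⟪u - ∑ a ∈ s, u a • (dl a : Ell2 X), w x⟫_ℂ‖ +
        ‖⟪∑ a ∈ s, u a • (dl a : Ell2 X), w x⟫_ℂ‖ := norm_add_le _ _
    _ < ε := by linarith

theorem tendsto_coeff_zero {A : ι → (Ell2 Y →L[ℂ] Ell2 X)} (hA : ∀ y, ‖A y‖ ≤ 1)
    (h : ∀ a b, Tendsto (fun y => ⟪(dl a : Ell2 X), A y (dl b)⟫_ℂ) cofinite (𝓝 0))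
    (u : Ell2 X) (v : Ell2 Y) : Tendsto (fun y => ⟪u, A y v⟫_ℂ) cofinite (𝓝 0) := by
  have hconj : ∀ {f : ι → ℂ}, Tendsto f cofinite (𝓝 0) →
      Tendsto (fun y => (starRingEnd ℂ) (f y)) cofinite (𝓝 0) := by
    intro f hf
    have := (Complex.continuous_conj.tendsto 0).comp hf
    rwa [map_zero] at this
  refine tendsto_inner_zero (C := ‖v‖) (norm_nonneg _) (fun y => ?_) (fun a => ?_) u
  · refine ((A y).le_opNorm v).trans ?_
    calc ‖A y‖ * ‖v‖ ≤ 1 * ‖v‖ := by gcongr; exact hA y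
      _ = ‖v‖ := one_mul _
  · have h1 : Tendsto (fun y => ⟪v, adjoint (A y) (dl a)⟫_ℂ) cofinite (𝓝 0) := by
      refine tendsto_inner_zero (C := 1) zero_le_one (fun y => ?_) (fun b => ?_) v
      · refine ((adjoint (A y)).le_opNorm _).trans ?_
        rw [LinearIsometryEquiv.norm_map, norm_dl, mul_one]
        exact hA y
      · refine (hconj (h a b)).congr fun y => ?_
        rw [inner_conj_symm, adjoint_inner_right]
    refine (hconj h1).congr fun y => ?_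
    rw [inner_conj_symm, adjoint_inner_left]

end weak

/-! ### Norms, products and adjoints -/

section frame

variable {I Λ Γ : Type} [Fintype I] [Group Λ] [Group Γ]
  {p : Ell2 (I × Λ) →L[ℂ] Ell2 (I × Λ)} {α : Γ → (Ell2 (I × Λ) →L[ℂ] Ell2 (I × Λ))}

theorem norm_proj_le {H : Type} [NormedAddCommGroup H] [InnerProductSpace ℂ H] [CompleteSpace H]
    {P : H →L[ℂ] H} (h1 : adjoint P = P) (h2 : P * P = P) : ‖P‖ ≤ 1 := by
  refine P.opNorm_le_bound zero_le_one fun v => ?_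
  rw [one_mul]
  have h3 : ⟪P v, P v⟫_ℂ = ⟪v, P v⟫_ℂ := by
    rw [← adjoint_inner_right, h1, ← mul_ap, h2]
  have h4 : ‖P v‖ ^ 2 ≤ ‖v‖ * ‖P v‖ := by
    have h5 := norm_inner_le_norm (𝕜 := ℂ) v (P v)
    rw [← h3, inner_self_eq_norm_sq_to_K, norm_pow, RCLike.norm_ofReal, abs_norm] at h5
    exact h5
  by_cases h0 : ‖P v‖ = 0
  · rw [h0]; exact norm_nonneg _
  · have h6 : 0 < ‖P v‖ := lt_of_le_of_ne (norm_nonneg _) (Ne.symm h0)
    rw [sq] at h4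
    exact le_of_mul_le_mul_right h4 h6

theorem norm_le_of_adj {H H' : Type} [NormedAddCommGroup H] [InnerProductSpace ℂ H]
    [CompleteSpace H] [NormedAddCommGroup H'] [InnerProductSpace ℂ H'] [CompleteSpace H']
    {A : H →L[ℂ] H'} {P : H →L[ℂ] H} (hP : ‖P‖ ≤ 1) (h : adjoint A ∘L A = P) : ‖A‖ ≤ 1 := by
  have h1 := norm_adjoint_comp_self A
  rw [h] at h1
  by_contra hc
  push Not at hc
  nlinarith

theorem A3_mul (hm : ∀ g h, α (g * h) = α g * α h) (y z : Γ × Γ × Γ) :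
    A3 α (y * z) = A3 α y * A3 α z := by
  rw [A3, A3, A3, ← tens_mul, ← tens_mul, ← bar_mul, ← hm, ← hm, ← hm]
  rfl

theorem A3_adj (ha : ∀ g, adjoint (α g) = α g⁻¹) (y : Γ × Γ × Γ) :
    adjoint (A3 α y) = A3 α y⁻¹ := by
  rw [A3, A3, adjoint_tens, adjoint_tens, adjoint_bar, ha, ha, ha]
  rfl

theorem A3_norm_le (ha : AFrame p α) (y : Γ × Γ × Γ) : ‖A3 α y‖ ≤ 1 := by
  have h1 : adjoint (A3 α y) ∘L A3 α y = A3 α 1 := by
    change adjoint (A3 α y) * A3 α y = _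
    rw [A3_adj ha.adj, ← A3_mul ha.mul, inv_mul_cancel]
  refine norm_le_of_adj (norm_proj_le ?_ ?_) h1
  · rw [A3_adj ha.adj, inv_one]
  · rw [← A3_mul ha.mul, one_mul]

theorem A3_R3 (he : ∀ g, Eqv (RrH I Λ) (α g)) (y : Γ × Γ × Γ) (s : Λ)
    (v : Ell2 ((I × Λ) × (I × Λ) × (I × Λ))) :
    A3 α y (R3H I Λ s v) = R3H I Λ s (A3 α y v) := by
  have h1 : ∀ g, α g * Rr I s = Rr I s * α g := fun g => by
    ext1 w
    exact he g s w
  have h2 : ∀ g, bar (α g) * Rr I s = Rr I s * bar (α g) := fun g => by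
    rw [← bar_Rr, ← bar_mul, h1, bar_mul]
  have h3 : A3 α y * R3H I Λ s = R3H I Λ s * A3 α y := by
    rw [A3, R3H_apply, ← tens_mul, ← tens_mul, h1, h2, h1, tens_mul, tens_mul]
  exact congrArg (fun S : Ell2 ((I × Λ) × (I × Λ) × (I × Λ)) →L[ℂ]
    Ell2 ((I × Λ) × (I × Λ) × (I × Λ)) => S v) h3

/-! ### Coefficients of the frame -/

theorem Tr_p_eq (ha : AFrame p α) : Tr p = (hsn p : ℂ) := by
  rw [← hs_self, hs_eq_Tr, ha.p_adj]
  change _ = Tr (p * p)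
  rw [ha.p_idem]

theorem p_eqv (ha : AFrame p α) : Eqv (RrH I Λ) p := by
  rw [← ha.one]; exact ha.eqv 1

theorem hsn_p_pos (ha : AFrame p α) : 0 < hsn p := by
  refine lt_of_le_of_ne (hsn_nonneg _) fun h => ha.p_ne (hsn_eq_zero (p_eqv ha) h.symm)

theorem hs_frame [DecidableEq Γ] (ha : AFrame p α) (g h : Γ) :
    hs (α g) (α h) = if g = h then (hsn p : ℂ) else 0 := by
  rw [hs_eq_Tr, ha.adj]
  change Tr (α g⁻¹ * α h) = _
  rw [← ha.mul]
  split_ifs with hgh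
  · rw [hgh, inv_mul_cancel, ha.one, Tr_p_eq ha]
  · refine ha.orth _ fun h1 => hgh ?_
    exact inv_mul_eq_one.mp h1

/-- The normalised frame is orthonormal. -/
theorem orthonormal_frame (ha : AFrame p α) :
    Orthonormal ℂ (fun g => ((Real.sqrt (hsn p))⁻¹ : ℂ) • vc (α g)) := by
  classical
  have hs0 := hsn_p_pos ha
  have hsq : ((Real.sqrt (hsn p) : ℝ) : ℂ) * ((Real.sqrt (hsn p) : ℝ) : ℂ) = (hsn p : ℂ) := by
    rw [← Complex.ofReal_mul, Real.mul_self_sqrt hs0.le]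
  have hne : ((Real.sqrt (hsn p) : ℝ) : ℂ) ≠ 0 := by
    rw [Ne, Complex.ofReal_eq_zero]
    exact (Real.sqrt_pos.mpr hs0).ne'
  rw [orthonormal_iff_ite]
  intro g h
  rw [inner_smul_left, inner_smul_right, inner_vc, hs_frame ha, map_inv₀, Complex.conj_ofReal]
  split_ifs with hgh
  · rw [← hsq]
    field_simp
  · simp

theorem summable_hs (ha : AFrame p α) (v : PiLp 2 (fun _ : I => Ell2 (I × Λ))) :
    Summable fun g => ‖⟪vc (α g), v⟫_ℂ‖ ^ 2 := by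
  have h1 := (orthonormal_frame ha).inner_products_summable v
  have hs0 := hsn_p_pos ha
  have hne : ((Real.sqrt (hsn p) : ℝ) : ℂ) ≠ 0 := by
    rw [Ne, Complex.ofReal_eq_zero]
    exact (Real.sqrt_pos.mpr hs0).ne'
  refine (h1.mul_left (hsn p)).congr fun g => ?_
  rw [inner_smul_left, norm_mul, mul_pow, map_inv₀, Complex.conj_ofReal, norm_inv, inv_pow,
    Complex.norm_real, Real.norm_eq_abs, sq_abs, Real.sq_sqrt hs0.le, ← mul_assoc,
    mul_inv_cancel₀ hs0.ne', one_mul]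

/-- A matrix coefficient of the frame is square summable. -/
theorem summable_coord (ha : AFrame p α) (x y : I × Λ) :
    Summable fun g => ‖⟪(dl x : Ell2 (I × Λ)), α g (dl y)⟫_ℂ‖ ^ 2 := by
  classical
  obtain ⟨j, k⟩ := y
  obtain ⟨i, l⟩ := x
  have h1 := summable_hs ha (WithLp.toLp 2 (Pi.single j (dl (i, l * k⁻¹))))
  refine h1.congr fun g => ?_
  congr 1
  rw [PiLp.inner_apply, Finset.sum_eq_single j]
  · rw [vc_apply]
    have h2 : (WithLp.toLp 2 (Pi.single j (dl (i, l * k⁻¹))) : PiLp 2 (fun _ : I => Ell2 (I × Λ))) j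
        = dl (i, l * k⁻¹) := by
      change (Pi.single j (dl (i, l * k⁻¹)) : I → Ell2 (I × Λ)) j = _
      rw [Pi.single_eq_same]
    rw [h2, inner_dl_right, RCLike.norm_conj, inner_dl, (ha.eqv g).apply_dl j k, RrH_apply,
      Rr_apply]
  · intro b _ hb
    have h2 : (WithLp.toLp 2 (Pi.single j (dl (i, l * k⁻¹))) : PiLp 2 (fun _ : I => Ell2 (I × Λ))) b
        = 0 := by
      change (Pi.single j (dl (i, l * k⁻¹)) : I → Ell2 (I × Λ)) b = _
      rw [Pi.single_eq_of_ne hb]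
    rw [h2, inner_zero_right]
  · intro h
    exact absurd (Finset.mem_univ j) h

theorem A3_coeff_tendsto (ha : AFrame p α) (u v : Ell2 ((I × Λ) × (I × Λ) × (I × Λ))) :
    Tendsto (fun y => ⟪u, A3 α y v⟫_ℂ) cofinite (𝓝 0) := by
  refine tendsto_coeff_zero (A3_norm_le ha) (fun a b => ?_) u v
  obtain ⟨a1, a2, a3⟩ := a
  obtain ⟨b1, b2, b3⟩ := b
  have h1 := summable_coord ha a1 b1
  have h2 := summable_coord ha a2 b2
  have h3 := summable_coord ha a3 b3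
  have h4 := (h2.mul_of_nonneg h3 (fun _ => by positivity) (fun _ => by positivity))
  have h5 := (h1.mul_of_nonneg h4 (fun _ => by positivity) (fun _ => by positivity))
  have h6 := h5.tendsto_cofinite_zero
  rw [tendsto_zero_iff_norm_tendsto_zero]
  have h7 := (Real.continuous_sqrt.tendsto 0).comp h6
  rw [Real.sqrt_zero] at h7
  refine h7.congr fun y => ?_
  rw [Function.comp_apply, ← mul_pow, ← mul_pow, Real.sqrt_sq (by positivity), A3,
    dl_prod a1 (a2, a3), dl_prod a2 a3, dl_prod b1 (b2, b3), dl_prod b2 b3, tens_tv, tens_tv,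
    inner_tv, inner_tv, norm_mul, norm_mul]
  congr 2
  rw [bar_dl]
  nth_rewrite 2 [← cj_dl a2]
  rw [inner_cj_cj, RCLike.norm_conj]

/-- An element of the corner whose traces against the frame vanish is zero. -/
theorem eq_zero_of_trace (ha : AFrame p α) {B : Ell2 (I × Λ) →L[ℂ] Ell2 (I × Λ)}
    (hB : Eqv (RrH I Λ) B) (h1 : p * B = B) (h2 : B * p = B) (h3 : ∀ g, Tr (B * α g) = 0) :
    B = 0 := by
  have h4 : ∀ g, ⟪vc B, vc (α g)⟫_ℂ = 0 := by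
    intro g
    rw [← inner_conj_symm, inner_vc, hs_eq_Tr, ha.adj]
    change (starRingEnd ℂ) (Tr (α g⁻¹ * B)) = 0
    rw [trace_comm (ha.eqv _) hB, h3, map_zero]
  refine hsn_eq_zero hB (le_antisymm ?_ (hsn_nonneg B))
  refine le_of_forall_pos_le_add fun ε hε => ?_
  obtain ⟨F, c, hF⟩ := ha.tot B hB h1 h2 ε hε
  have h5 : ⟪vc B, vc (∑ g ∈ F, c g • α g)⟫_ℂ = 0 := by
    rw [map_sum, inner_sum]
    refine Finset.sum_eq_zero fun g _ => ?_
    rw [map_smul, inner_smul_right, h4, mul_zero]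
  rw [zero_add]
  refine le_trans ?_ hF
  rw [← norm_vc, ← norm_vc, map_sub, norm_sub_sq (𝕜 := ℂ), h5]
  simp only [map_zero, mul_zero, sub_zero]
  have : 0 ≤ ‖vc (∑ g ∈ F, c g • α g)‖ ^ 2 := by positivity
  linarith

end frame

/-! ### Intertwiners -/

section itw

variable {I Λ Γ : Type} [Fintype I] [Group Λ] [Group Γ]
  {p : Ell2 (I × Λ) →L[ℂ] Ell2 (I × Λ)} {α : Γ → (Ell2 (I × Λ) →L[ℂ] Ell2 (I × Λ))}
  {T : Ell2 (I × Λ) →L[ℂ] Ell2 ((I × Λ) × (I × Λ) × (I × Λ))}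

theorem itw_p (ha : AFrame p α) (hT : Itw3 α T) : T ∘L p = T := by
  have h := hT.inv 1
  rw [inv_one, ha.one] at h
  calc T ∘L p = (A3 α (1, 1, 1) ∘L T ∘L p) ∘L p := by rw [h]
    _ = A3 α (1, 1, 1) ∘L T ∘L (p * p) := rfl
    _ = T := by rw [ha.p_idem, h]

theorem itw_one (ha : AFrame p α) (hT : Itw3 α T) : A3 α 1 ∘L T = T := by
  have h := hT.inv 1
  rw [inv_one, ha.one, itw_p ha hT] at h
  exact h

theorem itw_alpha (ha : AFrame p α) (hT : Itw3 α T) (g : Γ) :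
    T ∘L α g = A3 α (g, g, g) ∘L T := by
  have h := hT.inv g⁻¹
  rw [inv_inv] at h
  calc T ∘L α g = (A3 α 1 ∘L T) ∘L α g := by rw [itw_one ha hT]
    _ = (A3 α ((g, g, g) * (g⁻¹, g⁻¹, g⁻¹)) ∘L T) ∘L α g := by
        congr 3
        ext <;> simp
    _ = ((A3 α (g, g, g) * A3 α (g⁻¹, g⁻¹, g⁻¹)) ∘L T) ∘L α g := by rw [A3_mul ha.mul]
    _ = A3 α (g, g, g) ∘L (A3 α (g⁻¹, g⁻¹, g⁻¹) ∘L T ∘L α g) := rfl
    _ = A3 α (g, g, g) ∘L T := by rw [h]

/-- The operator `T* A3(y) T`. -/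
noncomputable def bb (α : Γ → (Ell2 (I × Λ) →L[ℂ] Ell2 (I × Λ)))
    (T : Ell2 (I × Λ) →L[ℂ] Ell2 ((I × Λ) × (I × Λ) × (I × Λ))) (y : Γ × Γ × Γ) :
    Ell2 (I × Λ) →L[ℂ] Ell2 (I × Λ) := adjoint T ∘L A3 α y ∘L T

theorem bb_one (ha : AFrame p α) (hT : Itw3 α T) : bb α T 1 = adjoint T ∘L T := by
  rw [bb, itw_one ha hT]

theorem bb_eqv (ha : AFrame p α) (hT : Itw3 α T) (y : Γ × Γ × Γ) : Eqv (RrH I Λ) (bb α T y) :=
  hT.eqv.adj_comp adjoint_R3 (hT.eqv.left (A3_R3 ha.eqv y))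

theorem bb_right (ha : AFrame p α) (hT : Itw3 α T) (y : Γ × Γ × Γ) (g : Γ) :
    bb α T y * α g = bb α T (y * (g, g, g)) := by
  calc bb α T y * α g = adjoint T ∘L A3 α y ∘L (T ∘L α g) := rfl
    _ = adjoint T ∘L (A3 α y * A3 α (g, g, g)) ∘L T := by rw [itw_alpha ha hT]; rfl
    _ = bb α T (y * (g, g, g)) := by rw [← A3_mul ha.mul]; rfl

theorem bb_adj (ha : AFrame p α) (y : Γ × Γ × Γ) :
    adjoint (bb α T y) = bb α T y⁻¹ := by
  rw [bb, adjoint_comp, adjoint_comp, adjoint_adjoint, A3_adj ha.adj, bb]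
  rfl

theorem bb_left (ha : AFrame p α) (hT : Itw3 α T) (y : Γ × Γ × Γ) (g : Γ) :
    α g * bb α T y = bb α T ((g, g, g) * y) := by
  have h1 := congrArg adjoint (bb_right ha hT y⁻¹ g⁻¹)
  rw [bb_adj ha] at h1
  have h2 : adjoint (bb α T y⁻¹ * α g⁻¹) = adjoint (α g⁻¹) * adjoint (bb α T y⁻¹) :=
    adjoint_comp _ _
  rw [h2, bb_adj ha, ha.adj, inv_inv, inv_inv, mul_inv_rev, inv_inv] at h1
  rw [h1]
  congr 2
  ext <;> simp

theorem bb_p (ha : AFrame p α) (hT : Itw3 α T) (y : Γ × Γ × Γ) : bb α T y * p = bb α T y := by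
  rw [← ha.one, bb_right ha hT]
  exact congrArg _ (mul_one y)

theorem p_bb (ha : AFrame p α) (hT : Itw3 α T) (y : Γ × Γ × Γ) : p * bb α T y = bb α T y := by
  rw [← ha.one, bb_left ha hT]
  exact congrArg _ (one_mul y)

theorem Tr_bb_conj (ha : AFrame p α) (hT : Itw3 α T) (y : Γ × Γ × Γ) (h : Γ) :
    Tr (bb α T ((h, h, h) * y * (h, h, h)⁻¹)) = Tr (bb α T y) := by
  have e : ((h, h, h)⁻¹ : Γ × Γ × Γ) = (h⁻¹, h⁻¹, h⁻¹) := rfl
  rw [e, ← bb_right ha hT, ← bb_left ha hT, trace_comm ((ha.eqv h).mul (bb_eqv ha hT y)) (ha.eqv _),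
    ← mul_assoc, ← ha.mul, inv_mul_cancel, ha.one, p_bb ha hT]

theorem Tr_bb_tendsto (ha : AFrame p α) (T : Ell2 (I × Λ) →L[ℂ]
    Ell2 ((I × Λ) × (I × Λ) × (I × Λ))) : Tendsto (fun y => Tr (bb α T y)) cofinite (𝓝 0) := by
  have h1 : Tendsto (fun y => ∑ i : I, ⟪T (dl (i, 1)), A3 α y (T (dl (i, 1)))⟫_ℂ) cofinite
      (𝓝 (∑ i : I, 0)) :=
    tendsto_finsetSum _ fun i _ => A3_coeff_tendsto ha _ _
  rw [Finset.sum_const_zero] at h1
  refine h1.congr fun y => ?_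
  exact hs_eq_Tr T (A3 α y ∘L T)

theorem infinite_conj (hG : ∀ g : Γ, g ≠ 1 → Set.Infinite {y : Γ | ∃ h, y = h * g * h⁻¹})
    (f : Γ × Γ × Γ →* Γ) (hf : ∀ h, f (h, h, h) = h) {y : Γ × Γ × Γ} (hy : f y ≠ 1) :
    Set.Infinite {z : Γ × Γ × Γ | ∃ h : Γ, z = (h, h, h) * y * (h, h, h)⁻¹} := by
  refine Set.Infinite.of_image f ((hG _ hy).mono ?_)
  rintro _ ⟨h, rfl⟩
  exact ⟨_, ⟨h, rfl⟩, by rw [map_mul, map_mul, map_inv, hf]⟩

theorem Tr_bb_zero (ha : AFrame p α)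
    (hG : ∀ g : Γ, g ≠ 1 → Set.Infinite {y : Γ | ∃ h, y = h * g * h⁻¹}) (hT : Itw3 α T)
    {y : Γ × Γ × Γ} (hy : y ≠ 1) : Tr (bb α T y) = 0 := by
  by_contra hne
  have hinf : Set.Infinite {z : Γ × Γ × Γ | ∃ h : Γ, z = (h, h, h) * y * (h, h, h)⁻¹} := by
    by_cases h1 : y.1 = 1
    · by_cases h2 : y.2.1 = 1
      · by_cases h3 : y.2.2 = 1
        · exact absurd (Prod.ext h1 (Prod.ext h2 h3)) hy
        · exact infinite_conj hG ((MonoidHom.snd Γ Γ).comp (MonoidHom.snd Γ (Γ × Γ)))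
            (fun _ => rfl) h3
      · exact infinite_conj hG ((MonoidHom.fst Γ Γ).comp (MonoidHom.snd Γ (Γ × Γ)))
          (fun _ => rfl) h2
    · exact infinite_conj hG (MonoidHom.fst Γ (Γ × Γ)) (fun _ => rfl) h1
  have h2 := (Tr_bb_tendsto ha T).norm
  rw [norm_zero] at h2
  have hpos : 0 < ‖Tr (bb α T y)‖ := norm_pos_iff.mpr hne
  have h3 := h2.eventually (gt_mem_nhds hpos)
  rw [Filter.eventually_cofinite] at h3
  refine hinf (h3.subset ?_)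
  rintro z ⟨h, rfl⟩
  change ¬ (‖Tr (bb α T ((h, h, h) * y * (h, h, h)⁻¹))‖ < ‖Tr (bb α T y)‖)
  rw [Tr_bb_conj ha hT]
  exact lt_irrefl _

end itw

end Vale.Agent.P092.H423

namespace Vale.Agent.P092.H367

open Vale.Agent.P092.H160 Vale.Agent.P092.H423

variable {I Λ Γ : Type} [Fintype I] [Group Λ] [Group Γ]
  {p : Ell2 (I × Λ) →L[ℂ] Ell2 (I × Λ)} {α : Γ → (Ell2 (I × Λ) →L[ℂ] Ell2 (I × Λ))}
  {T : Ell2 (I × Λ) →L[ℂ] Ell2 ((I × Λ) × (I × Λ) × (I × Λ))}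

/-- Off the diagonal, `T* A3(y) T = 0`. -/
theorem offdiag (ha : AFrame p α)
    (hG : ∀ g : Γ, g ≠ 1 → Set.Infinite {y : Γ | ∃ h, y = h * g * h⁻¹}) (hT : Itw3 α T)
    (y : Γ × Γ × Γ) (hy : ∀ g : Γ, y ≠ (g, g, g)) : adjoint T ∘L A3 α y ∘L T = 0 := by
  refine eq_zero_of_trace ha (bb_eqv ha hT y) (p_bb ha hT y) (bb_p ha hT y) fun g => ?_
  change Tr (bb α T y * α g) = 0
  rw [bb_right ha hT]
  refine Tr_bb_zero ha hG hT fun h1 => hy g⁻¹ ?_
  exact eq_inv_of_mul_eq_one_left h1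

/-- `T* T` is a positive multiple of `p`. -/
theorem adj_self (ha : AFrame p α)
    (hG : ∀ g : Γ, g ≠ 1 → Set.Infinite {y : Γ | ∃ h, y = h * g * h⁻¹}) (hT : Itw3 α T)
    (hT0 : T ≠ 0) : ∃ b : ℝ, 0 < b ∧ adjoint T ∘L T = (b : ℂ) • p := by
  have hs0 := hsn_p_pos ha
  have hT1 : 0 < hsn T :=
    lt_of_le_of_ne (hsn_nonneg T) fun h => hT0 (hsn_eq_zero hT.eqv h.symm)
  refine ⟨hsn T / hsn p, div_pos hT1 hs0, ?_⟩
  rw [← sub_eq_zero, ← bb_one ha hT]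
  have hpe : Eqv (RrH I Λ) p := p_eqv ha
  refine eq_zero_of_trace ha ((bb_eqv ha hT 1).sub (hpe.smul _)) ?_ ?_ fun g => ?_
  · rw [mul_sub, p_bb ha hT, mul_smul_comm, ha.p_idem]
  · rw [sub_mul, bb_p ha hT, smul_mul_assoc, ha.p_idem]
  · have hTr : ∀ A B : Ell2 (I × Λ) →L[ℂ] Ell2 (I × Λ), ∀ c : ℂ,
        Tr (A - c • B) = Tr A - c * Tr B := by
      intro A B c
      unfold Tr
      rw [Finset.mul_sum, ← Finset.sum_sub_distrib]
      refine Finset.sum_congr rfl fun i _ => ?_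
      rw [sub_apply, smul_apply, inner_sub_right, inner_smul_right]
    rw [sub_mul, smul_mul_assoc, hTr, bb_right ha hT, one_mul]
    have hpg : p * α g = α g := by rw [← ha.one, ← ha.mul, one_mul]
    rw [hpg]
    by_cases hg : g = 1
    · have e : ((g, g, g) : Γ × Γ × Γ) = 1 := by rw [hg]; rfl
      rw [e, bb_one ha hT, ← hs_eq_Tr, hs_self, hg, ha.one, Tr_p_eq ha]
      have : (hsn p : ℂ) ≠ 0 := by exact_mod_cast hs0.ne'
      push_cast
      field_simp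
      ring
    · rw [ha.orth g hg, Tr_bb_zero ha hG hT, mul_zero, sub_zero]
      intro h
      exact hg (congrArg Prod.fst h)

end Vale.Agent.P092.H367
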