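import Vale.Agent.P092.R3.H381.Low
import Vale.Agent.P092.R3.H423.StSub

/-!
Subgroups: cubic operators intertwining on a subgroup, and decay of the fourth power sums along
the random walks of a subgroup.
-/

set_option linter.all false

open scoped InnerProductSpace
open Filter Topology ContinuousLinearMap

namespace Vale.Agent.P092.H423

open Vale.Agent.P092.H160 Vale.Agent.P092.H885 Vale.Agent.P092.H367

section sub

variable {I Λ Γ : Type} [Fintype I] [Group Λ] [Group Γ]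
  {p : Ell2 (I × Λ) →L[ℂ] Ell2 (I × Λ)} {α : Γ → (Ell2 (I × Λ) →L[ℂ] Ell2 (I × Λ))}
  {T : Ell2 (I × Λ) →L[ℂ] Ell2 ((I × Λ) × (I × Λ) × (I × Λ))}

/-- Bounded cubic operators which intertwine on the subgroup `A`. -/
structure ItwH (α : Γ → (Ell2 (I × Λ) →L[ℂ] Ell2 (I × Λ))) (A : Subgroup Γ)
    (T : Ell2 (I × Λ) →L[ℂ] Ell2 ((I × Λ) × (I × Λ) × (I × Λ))) : Prop where
  eqv : Eqv (R3H I Λ) T
  inv : ∀ g ∈ A, H367.A3 α (g, g, g) ∘L T ∘L α g⁻¹ = T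

theorem ItwH.mono {A B : Subgroup Γ} (hAB : A ≤ B) (h : ItwH α B T) : ItwH α A T :=
  ⟨h.eqv, fun g hg => h.inv g (hAB hg)⟩

theorem ItwH.top (h : ItwH α (⊤ : Subgroup Γ) T) : Itw3 α T :=
  ⟨h.eqv, fun g => h.inv g (Subgroup.mem_top g)⟩

/-- The family of the cubic operators over the coset `A b`. -/
noncomputable def TA (α : Γ → (Ell2 (I × Λ) →L[ℂ] Ell2 (I × Λ))) (A : Subgroup Γ) (b : Γ)
    (h : A) : Ell2 (I × Λ) →L[ℂ] Ell2 ((I × Λ) × (I × Λ) × (I × Λ)) := Tg α (h * b)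

/-- The closed convex set. -/
def KA (α : Γ → (Ell2 (I × Λ) →L[ℂ] Ell2 (I × Λ))) (A : Subgroup Γ) (b : Γ) :
    Set (Ell2 (I × ((I × Λ) × (I × Λ) × (I × Λ)))) :=
  closure (vec '' hull (Set.range (TA α A b)))

variable (hα : AFrame p α) (A : Subgroup Γ) (b : Γ)

include hα

theorem hullA_Gd : hull (Set.range (TA α A b)) ⊆ {T | Gd T} := by
  refine hull_subset cvx_Gd ?_
  rintro _ ⟨g, rfl⟩
  exact ⟨cg_le hα _ (Gd_D0 hα).1, cg_eqv hα _ (Gd_D0 hα).2⟩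

theorem cg_hullA (g : A) {S : Ell2 (I × Λ) →L[ℂ] Ell2 ((I × Λ) × (I × Λ) × (I × Λ))}
    (hS : S ∈ hull (Set.range (TA α A b))) : cg α g S ∈ hull (Set.range (TA α A b)) := by
  have hcv : Cvx {R : Ell2 (I × Λ) →L[ℂ] Ell2 ((I × Λ) × (I × Λ) × (I × Λ)) |
      cg α g R ∈ hull (Set.range (TA α A b))} := by
    intro R hR R' hR' a b' ha hb hab
    have h1 := cvx_hull _ _ hR _ hR' a b' ha hb hab
    change cg α g ((a : ℂ) • R + (b' : ℂ) • R') ∈ hull (Set.range (TA α A b))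
    rw [cg_lc]
    exact h1
  refine hull_subset hcv ?_ hS
  rintro _ ⟨h, rfl⟩
  change cg α g (H367.Tg α (h * b)) ∈ hull (Set.range (TA α A b))
  rw [cg_Tg hα]
  refine subset_hull _ ⟨g * h, ?_⟩
  change Tg α (((g * h : A) : Γ) * b) = _
  rw [Subgroup.coe_mul, mul_assoc]

theorem cg_KA (g : A) {T : Ell2 (I × Λ) →L[ℂ] Ell2 ((I × Λ) × (I × Λ) × (I × Λ))}
    (hT : Eqv (R3H I Λ) T) (h : vec T ∈ KA α A b) : vec (cg α g T) ∈ KA α A b := by
  unfold KA at h ⊢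
  rw [Metric.mem_closure_iff] at h ⊢
  intro ε hε
  obtain ⟨_, ⟨S, hS, rfl⟩, hd⟩ := h ε hε
  refine ⟨vec (cg α g S), ⟨_, cg_hullA hα A b g hS, rfl⟩, ?_⟩
  have hSe : Eqv (R3H I Λ) S := (hullA_Gd hα A b hS).2
  rw [dist_eq_norm, ← map_sub, ← cg_sub]
  rw [dist_eq_norm, ← map_sub] at hd
  refine lt_of_le_of_lt ?_ hd
  refine (pow_le_pow_iff_left₀ (norm_nonneg _) (norm_nonneg _) two_ne_zero).mp ?_
  rw [norm_vec, norm_vec]
  exact hsn_cg_le hα _ (hT.sub hSe)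

/-- Either zero is in the closed convex hull over the coset, or there is a nonzero operator
intertwining on the subgroup. -/
theorem itwA_or_zero : (∃ T : Ell2 (I × Λ) →L[ℂ] Ell2 ((I × Λ) × (I × Λ) × (I × Λ)),
    ItwH α A T ∧ T ≠ 0) ∨ (0 : Ell2 (I × ((I × Λ) × (I × Λ) × (I × Λ)))) ∈ KA α A b := by
  have hKc : Cvx (KA α A b) := ((cvx_hull _).image vec).closure
  have hne : (KA α A b).Nonempty :=
    ⟨vec (TA α A b 1), subset_closure ⟨_, subset_hull _ ⟨1, rfl⟩, rfl⟩⟩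
  obtain ⟨ω, hω, hmin, huniq⟩ := min_norm_ell2 hne isClosed_closure hKc
  by_cases h0 : ω = 0
  · right; rw [← h0]; exact hω
  · left
    have h1 : ω ∈ closure (vec ''
        {T : Ell2 (I × Λ) →L[ℂ] Ell2 ((I × Λ) × (I × Λ) × (I × Λ)) | Gd T}) :=
      closure_mono (Set.image_mono (hullA_Gd hα A b)) hω
    obtain ⟨T, hT, hTω⟩ := closed_vec h1
    refine ⟨T, ⟨hT.2, fun g hg => ?_⟩, fun h => h0 ?_⟩
    · have h2 : vec (cg α g T) = ω := by
        refine huniq _ (cg_KA hα A b ⟨g, hg⟩ hT.2 (by rw [hTω]; exact hω)) ?_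
        refine (pow_le_pow_iff_left₀ (norm_nonneg _) (norm_nonneg _) two_ne_zero).mp ?_
        rw [← hTω, norm_vec, norm_vec]
        exact hsn_cg_le hα g hT.2
      exact vec_inj (cg_eqv hα g hT.2) hT.2 (h2.trans hTω.symm)
    · rw [← hTω, h, map_zero]

omit hα in
theorem hullA_vec {S : Ell2 (I × Λ) →L[ℂ] Ell2 ((I × Λ) × (I × Λ) × (I × Λ))}
    (hS : S ∈ hull (Set.range (TA α A b))) :
    ∃ c : A →₀ ℂ, (c.sum fun _ a => a) = 1 ∧
      Finsupp.linearCombination ℂ (fun g => vec (TA α A b g)) c = vec S := by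
  have hcv : Cvx {S : Ell2 (I × Λ) →L[ℂ] Ell2 ((I × Λ) × (I × Λ) × (I × Λ)) |
      ∃ c : A →₀ ℂ, (c.sum fun _ a => a) = 1 ∧
        Finsupp.linearCombination ℂ (fun g => vec (TA α A b g)) c = vec S} := by
    rintro S ⟨c, hc, hc'⟩ T ⟨d, hd, hd'⟩ x y hx hy hxy
    refine ⟨(x : ℂ) • c + (y : ℂ) • d, ?_, ?_⟩
    · rw [sum_lin] at hc hd ⊢
      rw [map_add, map_smul, map_smul, hc, hd, smul_eq_mul, smul_eq_mul, mul_one, mul_one,
        ← Complex.ofReal_add, hxy, Complex.ofReal_one]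
    · rw [map_add, map_smul, map_smul, hc', hd']
      exact (by rw [map_add, map_smul, map_smul] :
        vec ((x : ℂ) • S + (y : ℂ) • T) = (x : ℂ) • vec S + (y : ℂ) • vec T).symm
  refine hull_subset hcv ?_ hS
  rintro _ ⟨g, rfl⟩
  refine ⟨Finsupp.single g 1, ?_, ?_⟩
  · rw [Finsupp.sum_single_index rfl]
  · rw [Finsupp.linearCombination_single, one_smul]

omit hα in
theorem smallA (h0 : (0 : Ell2 (I × ((I × Λ) × (I × Λ) × (I × Λ)))) ∈ KA α A b) :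
    ∀ ε > (0 : ℝ), ∃ c : A →₀ ℂ, (c.sum fun _ a => a) = 1 ∧
      ‖Finsupp.linearCombination ℂ (fun g : A => vec (TA α A b g)) c‖ ≤ ε := by
  intro ε hε
  obtain ⟨_, ⟨S, hS, rfl⟩, hd⟩ := Metric.mem_closure_iff.mp h0 ε hε
  rw [dist_zero_left] at hd
  obtain ⟨c, hc, hcS⟩ := hullA_vec A b hS
  exact ⟨c, hc, by rw [hcS]; exact hd.le⟩

end sub

/-! ### Vectors invariant under the subgroup in the representation generated by the family -/

section gns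

variable {Γ : Type} [Group Γ] {H : Type} [NormedAddCommGroup H] [InnerProductSpace ℂ H]
  {v : Γ → H} (hv : ∀ g h k : Γ, ⟪v (g * h), v (g * k)⟫_ℂ = ⟪v h, v k⟫_ℂ) (A : Subgroup Γ)
  (hz : ∀ b : Γ, ∀ ε > (0 : ℝ), ∃ c : A →₀ ℂ, (c.sum fun _ a => a) = 1 ∧
    ‖Finsupp.linearCombination ℂ (fun g : A => v (g * b)) c‖ ≤ ε)

include hz

theorem orthA {η : HC v} (hη : ∀ g ∈ A, piC hv g η = η) (b : Γ) : ⟪η, vc v b⟫_ℂ = 0 := by
  have h1 : ∀ g : A, ⟪η, vc v (g * b)⟫_ℂ = ⟪η, vc v b⟫_ℂ := by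
    intro g
    have h2 : UC hv g η = η := hη g g.2
    have h3 := UC_inner hv g η (vc v b)
    rw [h2, UC_vc] at h3
    exact h3
  have h2 : ∀ c : A →₀ ℂ, ∃ s : LinearMap.range (LC v),
      (s : H) = Finsupp.linearCombination ℂ (fun g : A => v (g * b)) c ∧
      ⟪η, (s : HC v)⟫_ℂ = (c.sum fun _ a => a) * ⟪η, vc v b⟫_ℂ := by
    intro c
    refine ⟨c.sum fun g a => a • ⟨v (g * b), ⟨Finsupp.single (g * b : Γ) 1, LC_single v _⟩⟩,
      ?_, ?_⟩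
    · change (LinearMap.range (LC v)).subtype _ = _
      rw [map_finsuppSum, Finsupp.linearCombination_apply]
      rfl
    · have e2 : ∀ s : LinearMap.range (LC v), (s : HC v) =
        UniformSpace.Completion.toComplL (𝕜 := ℂ) (E := LinearMap.range (LC v)) s := fun _ => rfl
      rw [e2, map_finsuppSum, Finsupp.inner_sum, Finsupp.sum_mul]
      refine Finsupp.sum_congr fun g _ => ?_
      rw [map_smul]
      have h6 : ⟪η, c g • vc v (g * b)⟫_ℂ = c g * ⟪η, vc v (g * b)⟫_ℂ :=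
        inner_smul_right η (vc v (g * b)) (c g)
      exact h6.trans (by rw [h1 g])
  by_contra hne
  have hpos : 0 < ‖⟪η, vc v b⟫_ℂ‖ := norm_pos_iff.mpr hne
  obtain ⟨c, hc, hcε⟩ := hz b (‖⟪η, vc v b⟫_ℂ‖ / (2 * (‖η‖ + 1))) (by positivity)
  obtain ⟨s, hs1, h3⟩ := h2 c
  rw [hc, one_mul] at h3
  have h4 := norm_inner_le_norm (𝕜 := ℂ) η (s : HC v)
  rw [h3, UniformSpace.Completion.norm_coe] at h4
  have h5 : ‖s‖ = ‖(s : H)‖ := rfl
  rw [h5, hs1] at h4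
  have h6 : ‖η‖ * ‖Finsupp.linearCombination ℂ (fun g : A => v (g * b)) c‖ ≤
      (‖η‖ + 1) * (‖⟪η, vc v b⟫_ℂ‖ / (2 * (‖η‖ + 1))) := by
    gcongr
    linarith
  have h7 : (‖η‖ + 1) * (‖⟪η, vc v b⟫_ℂ‖ / (2 * (‖η‖ + 1))) = ‖⟪η, vc v b⟫_ℂ‖ / 2 := by
    field_simp
  linarith

/-- There are no nonzero vectors invariant under the subgroup. -/
theorem no_inv {η : HC v} (hη : ∀ g ∈ A, piC hv g η = η) : η = 0 := by
  have h1 : ∀ s : LinearMap.range (LC v), ⟪η, (s : HC v)⟫_ℂ = 0 := by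
    rintro ⟨_, c, rfl⟩
    have e1 : (⟨LC v c, ⟨c, rfl⟩⟩ : LinearMap.range (LC v)) =
        c.sum fun g a => a • ⟨v g, ⟨Finsupp.single g 1, LC_single v g⟩⟩ := by
      apply Subtype.ext
      change LC v c = (LinearMap.range (LC v)).subtype _
      rw [map_finsuppSum]
      unfold LC
      rw [Finsupp.linearCombination_apply]
      rfl
    rw [e1]
    have e2 : ∀ s : LinearMap.range (LC v), (s : HC v) =
      UniformSpace.Completion.toComplL (𝕜 := ℂ) (E := LinearMap.range (LC v)) s := fun _ => rfl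
    rw [e2, map_finsuppSum, Finsupp.inner_sum]
    refine Finset.sum_eq_zero fun g _ => ?_
    beta_reduce
    rw [map_smul]
    have h6 : ⟪η, c g • vc v g⟫_ℂ = c g * ⟪η, vc v g⟫_ℂ := inner_smul_right η (vc v g) (c g)
    exact h6.trans (by rw [orthA hv A hz hη g, mul_zero])
  have h2 : ∀ x : HC v, ⟪η, x⟫_ℂ = 0 := by
    intro x
    induction x using UniformSpace.Completion.induction_on with
    | hp => exact isClosed_eq (by fun_prop) (by fun_prop)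
    | ih s => exact h1 s
  exact inner_self_eq_zero.mp (h2 η)

end gns

/-! ### The representation of a subgroup -/

section rep

variable {Γ : Type} [Group Γ] {E : Type} [NormedAddCommGroup E] [InnerProductSpace ℂ E]
  {v : Γ → E} (hv : ∀ g h k : Γ, ⟪v (g * h), v (g * k)⟫_ℂ = ⟪v h, v k⟫_ℂ) (H : Subgroup Γ)

/-- the representation of the subgroup -/
noncomputable def repS : H →* (HC v →L[ℂ] HC v) := (piC hv).comp H.subtype

theorem repS_apply (h : H) : repS hv H h = piC hv (h : Γ) := rfl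

theorem repS_adj (h : H) : adjoint (repS hv H h) = repS hv H h⁻¹ := piC_adj hv (h : Γ)

/-- the same as a unitary representation -/
noncomputable def urepS : URep H (HC v) where
  act g w := repS hv H g w
  act_add g w z := map_add _ _ _
  act_smul g c w := map_smul _ _ _
  norm_act g w := H885.u_norm (repS_adj hv H) g w
  act_one w := congrArg (fun L : HC v →L[ℂ] HC v => L w) (repS hv H).map_one
  act_mul g h w := congrArg (fun L : HC v →L[ℂ] HC v => L w) ((repS hv H).map_mul g h)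

theorem coeffS (a b : Γ) (Q : Finset H) (k : ℕ) :
    (avg Q)^[k] (fun h : H => (⟪v 1, v (a * h * b)⟫_ℂ).re) 1 =
      (⟪piC hv a⁻¹ (vc v 1), (av (repS hv H) Q)^[k] (piC hv b (vc v 1))⟫_ℂ).re := by
  have h1 : (fun h : H => (⟪v 1, v (a * h * b)⟫_ℂ).re) =
      fun h => (⟪piC hv a⁻¹ (vc v 1), repS hv H h (piC hv b (vc v 1))⟫_ℂ).re := by
    funext h
    have e0 : piC hv (a * h * b) (vc v 1) = piC hv a (piC hv h (piC hv b (vc v 1))) := by
      have e1 := congrArg (fun L : HC v →L[ℂ] HC v => L (vc v 1)) ((piC hv).map_mul (a * h) b)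
      have e2 := congrArg (fun L : HC v →L[ℂ] HC v => L (piC hv b (vc v 1)))
        ((piC hv).map_mul a h)
      exact e1.trans e2
    rw [← coeff_vc hv, e0, repS_apply]
    have hπ := piC_adj hv
    have e3 := u_left hπ a⁻¹ (vc v 1) (piC hv h (piC hv b (vc v 1)))
    rw [inv_inv] at e3
    rw [e3]
  rw [h1, avg_iter]
  have h3 : repS hv H 1 ((av (repS hv H) Q)^[k] (piC hv b (vc v 1))) =
      (av (repS hv H) Q)^[k] (piC hv b (vc v 1)) := by rw [map_one]; rfl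
  change (⟪piC hv a⁻¹ (vc v 1), repS hv H 1 ((av (repS hv H) Q)^[k] (piC hv b (vc v 1)))⟫_ℂ).re = _
  rw [h3]

variable {H} {A : Subgroup H} (hno : ∀ η : HC v, (∀ g ∈ A, piC hv ((g : H) : Γ) η = η) → η = 0)

include hno

theorem gapS {Q : Finset H} {ε : ℝ} (hK : IsRelKazhdanPair H A Q ε) (w : HC v) :
    ∃ s ∈ Q, ε * ‖w‖ ≤ ‖repS hv H s w - w‖ :=
  hK.2 (HC v) (urepS hv H) (fun w hw => hno w hw) w

theorem quantS {Q : Finset H} {ε : ℝ} (hK : IsRelKazhdanPair H A Q ε) (a b : Γ) (k : ℕ) :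
    (avg Q)^[k] (fun h : H => (⟪v 1, v (a * h * b)⟫_ℂ).re) 1 ≤
      ‖v 1‖ ^ 2 * (1 - ε ^ 2 / (4 * Q.card)) ^ k := by
  have hπ := repS_adj hv H
  obtain ⟨s, hs, -⟩ := gapS hv hno hK (vc v 1)
  have hQ : Q.Nonempty := ⟨s, hs⟩
  rw [coeffS hv]
  have h2 := gap_norm hπ hK.1.le hQ ⊤ (fun g w _ => Submodule.mem_top)
    (fun w _ => gapS hv hno hK w) (Submodule.mem_top (x := piC hv b (vc v 1))) k
  have hπΓ := piC_adj hv
  rw [H885.u_norm hπΓ, norm_vc] at h2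
  calc _ ≤ ‖⟪piC hv a⁻¹ (vc v 1), (av (repS hv H) Q)^[k] (piC hv b (vc v 1))⟫_ℂ‖ :=
        Complex.re_le_norm _
    _ ≤ ‖piC hv a⁻¹ (vc v 1)‖ * ‖(av (repS hv H) Q)^[k] (piC hv b (vc v 1))‖ :=
        inner_bd (H := HC v) _ _
    _ ≤ ‖v 1‖ * ((1 - ε ^ 2 / (4 * Q.card)) ^ k * ‖v 1‖) := by
        rw [H885.u_norm hπΓ, norm_vc]
        gcongr
    _ = _ := by ring

theorem oneS {Q : Finset H} {ε : ℝ} (hK : IsRelKazhdanPair H A Q ε) :
    ∃ s ∈ Q, (⟪v 1, v (s : Γ)⟫_ℂ).re ≤ ‖v 1‖ ^ 2 * (1 - ε ^ 2 / 2) := by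
  have hπ := repS_adj hv H
  obtain ⟨s, hs, h2⟩ := gapS hv hno hK (vc v 1)
  refine ⟨s, hs, ?_⟩
  have h3 := norm_sub_sq (𝕜 := ℂ) (repS hv H s (vc v 1)) (vc v 1)
  rw [H885.u_norm hπ, norm_vc] at h3
  have h4 : (⟪repS hv H s (vc v 1), vc v 1⟫_ℂ).re = (⟪v 1, v (s : Γ)⟫_ℂ).re := by
    have h7 : (⟪repS hv H s (vc v 1), vc v 1⟫_ℂ).re =
        (⟪vc v 1, repS hv H s (vc v 1)⟫_ℂ).re := inner_cs (H := HC v) _ _
    rw [h7, repS_apply, coeff_vc]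
  have h5 : ‖repS hv H s (vc v 1) - vc v 1‖ ^ 2 =
      ‖v 1‖ ^ 2 - 2 * (⟪repS hv H s (vc v 1), vc v 1⟫_ℂ).re + ‖v 1‖ ^ 2 := h3
  rw [norm_vc] at h2
  have h6 : (ε * ‖v 1‖) ^ 2 ≤ ‖repS hv H s (vc v 1) - vc v 1‖ ^ 2 :=
    pow_le_pow_left₀ (by have := hK.1; positivity) h2 2
  rw [h5, h4] at h6
  nlinarith

theorem softS {Q : Finset H} (hQ : Q.Nonempty) (hgen : Subgroup.closure (Q : Set H) = ⊤)
    (a b : Γ) :
    Tendsto (fun k : ℕ => (avg Q)^[k] (fun h : H => (⟪v 1, v (a * h * b)⟫_ℂ).re) 1)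
      atTop (𝓝 0) := by
  have hπ := repS_adj hv H
  have h3 := soft_norm hπ hQ hgen (ξ := piC hv b (vc v 1)) (fun η hη => by
    have : η = 0 := hno η fun g _ => hη g
    rw [this, inner_zero_left])
  have h4 : Tendsto (fun k : ℕ =>
      (⟪piC hv a⁻¹ (vc v 1), (av (repS hv H) Q)^[k] (piC hv b (vc v 1))⟫_ℂ).re) atTop
      (𝓝 (⟪piC hv a⁻¹ (vc v 1), (0 : HC v)⟫_ℂ).re) :=
    (Complex.continuous_re.tendsto _).comp (tendsto_const_nhds.inner h3)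
  rw [inner_zero_right, Complex.zero_re] at h4
  refine h4.congr fun k => ?_
  rw [coeffS hv]

end rep

/-! ### Decay along a subgroup -/

section dec

variable {I Λ Γ : Type} [Fintype I] [Group Λ] [Group Γ]
  {p : Ell2 (I × Λ) →L[ℂ] Ell2 (I × Λ)} {α : Γ → (Ell2 (I × Λ) →L[ℂ] Ell2 (I × Λ))}

/-- the vectors of the cubic operators -/
noncomputable def vT (α : Γ → (Ell2 (I × Λ) →L[ℂ] Ell2 (I × Λ))) (g : Γ) :
    Ell2 (I × ((I × Λ) × (I × Λ) × (I × Λ))) := vec (H367.Tg α g)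

theorem gramT (hα : AFrame p α) (g h k : Γ) :
    ⟪vT α (g * h), vT α (g * k)⟫_ℂ = ⟪vT α h, vT α k⟫_ℂ := gram hα g h k

/-- Decay along the random walks of `H` if there is no nonzero operator intertwining on the
subgroup `A` of `H`. -/
theorem decay_sub (hα : AFrame p α) {H : Subgroup Γ} {A : Subgroup H}
    (hno : ∀ T, ItwH α (A.map H.subtype) T → T = 0) :
    (∀ (Q : Finset H) (ε : ℝ), IsRelKazhdanPair H A Q ε →
      (∃ s ∈ Q, f4 (α (s : Γ)) ≤ f4 p * (1 - ε ^ 2 / 2)) ∧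
      ∀ (a b : Γ) (k : ℕ), (avg Q)^[k] (fun h : H => f4 (α (a * h * b))) 1 ≤
        f4 p * (1 - ε ^ 2 / (4 * Q.card)) ^ k) ∧
    (∀ Q : Finset H, Q.Nonempty → Subgroup.closure (Q : Set H) = ⊤ → ∀ a b : Γ,
      Tendsto (fun k : ℕ => (avg Q)^[k] (fun h : H => f4 (α (a * h * b))) 1) atTop (𝓝 0)) := by
  have hv := gramT hα
  have hz : ∀ b : Γ, ∀ ε > (0 : ℝ), ∃ c : (A.map H.subtype : Subgroup Γ) →₀ ℂ,
      (c.sum fun _ a => a) = 1 ∧
      ‖Finsupp.linearCombination ℂ (fun g : (A.map H.subtype : Subgroup Γ) =>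
        vT α (g * b)) c‖ ≤ ε := by
    intro b
    have h0 := (itwA_or_zero hα (A.map H.subtype) b).resolve_left (by
      rintro ⟨T, hT, hne⟩
      exact hne (hno T hT))
    exact smallA (A.map H.subtype) b h0
  have hn : ∀ η : HC (vT α), (∀ g ∈ A, piC hv ((g : H) : Γ) η = η) → η = 0 := by
    intro η hη
    refine no_inv hv (A.map H.subtype) hz ?_
    rintro _ ⟨g, hg, rfl⟩
    exact hη g hg
  have h1 : ∀ g, f4 (α g) = (⟪vT α 1, vT α g⟫_ℂ).re := fun g => by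
    rw [vT, vT, coeff_f4 hα, Complex.ofReal_re]
  have h2 : f4 p = ‖vT α 1‖ ^ 2 := (norm_Tg_one hα).symm
  simp only [h1, h2]
  refine ⟨fun Q ε hK => ⟨?_, fun a b k => ?_⟩, fun Q hQ hgen a b => ?_⟩
  · exact oneS hv hn hK
  · exact quantS hv hn hK a b k
  · exact softS hv hn hQ hgen a b

end dec

/-! ### Lower bounds -/

section low

variable {I Λ Γ : Type} [Fintype I] [Group Λ] [Group Γ]
  {p : Ell2 (I × Λ) →L[ℂ] Ell2 (I × Λ)} {α : Γ → (Ell2 (I × Λ) →L[ℂ] Ell2 (I × Λ))}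
  {T : Ell2 (I × Λ) →L[ℂ] Ell2 ((I × Λ) × (I × Λ) × (I × Λ))}

theorem lower_one_of (hα : AFrame p α) (hTe : Eqv (R3H I Λ) T) (g : Γ)
    (e1 : ‖vec T‖ ^ 2 ≤ ‖⟪vA (H367.A3 α (g, g, g)) T, vB (α g) T⟫_ℂ‖)
    (F : Finset (I × ((I × Λ) × (I × Λ) × (I × Λ)))) (c : I × ((I × Λ) × (I × Λ) × (I × Λ)) → ℂ)
    {δ : ℝ} (hR : ‖vec (T - ∑ k ∈ F, c k • EE k)‖ ≤ δ) :
    ‖vec T‖ ^ 2 ≤ (∑ k ∈ F, ‖c k‖) ^ 2 * f4 (α g) + (‖vec T‖ + δ) * δ + δ * ‖vec T‖ := by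
  have h3 := pair_sum_le hα g F c
  have he1 : Eqv (R3H I Λ) (∑ k ∈ F, c k • EE k) := Eqv.sum F fun k _ => (EE_eqv k).smul _
  generalize (∑ k ∈ F, c k • EE k : Ell2 (I × Λ) →L[ℂ] Ell2 ((I × Λ) × (I × Λ) × (I × Λ))) =
    T1 at hR h3 he1
  have hδ0 : 0 ≤ δ := (norm_nonneg _).trans hR
  have hn1 : ‖vec T1‖ ≤ ‖vec T‖ + δ := by
    have h1 : vec T1 = vec T - vec (T - T1) := by rw [map_sub]; abel
    rw [h1]
    exact (norm_sub_le _ _).trans (by linarith)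
  have h2 : ⟪vA (H367.A3 α (g, g, g)) T, vB (α g) T⟫_ℂ =
      ⟪vA (H367.A3 α (g, g, g)) T1, vB (α g) T1⟫_ℂ +
      ⟪vA (H367.A3 α (g, g, g)) T1, vB (α g) (T - T1)⟫_ℂ +
      ⟪vA (H367.A3 α (g, g, g)) (T - T1), vB (α g) T⟫_ℂ := by
    rw [map_sub, map_sub, inner_sub_right, inner_sub_left]
    ring
  have h4 : ‖⟪vA (H367.A3 α (g, g, g)) T1, vB (α g) (T - T1)⟫_ℂ‖ ≤ (‖vec T‖ + δ) * δ := by
    refine (norm_inner_le_norm _ _).trans ?_
    have a1 := norm_vA_le hα (g, g, g) T1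
    have a2 := norm_vB_le hα g (hTe.sub he1)
    exact mul_le_mul (a1.trans hn1) (a2.trans hR) (norm_nonneg _) (by positivity)
  have h5 : ‖⟪vA (H367.A3 α (g, g, g)) (T - T1), vB (α g) T⟫_ℂ‖ ≤ δ * ‖vec T‖ := by
    refine (norm_inner_le_norm _ _).trans ?_
    have a1 := norm_vA_le hα (g, g, g) (T - T1)
    have a2 := norm_vB_le hα g hTe
    exact mul_le_mul (a1.trans hR) a2 (norm_nonneg _) hδ0
  refine e1.trans ?_
  rw [h2]
  refine (norm_add_le _ _).trans ?_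
  exact add_le_add ((norm_add_le _ _).trans (add_le_add h3 h4)) h5

/-- Lower bound of the fourth power sums on a set. -/
theorem lower_set (hα : AFrame p α) (hTe : Eqv (R3H I Λ) T) (hT0 : T ≠ 0) (S : Set Γ)
    (e1 : ∀ g ∈ S, ‖vec T‖ ^ 2 ≤ ‖⟪vA (H367.A3 α (g, g, g)) T, vB (α g) T⟫_ℂ‖) :
    ∃ c : ℝ, 0 < c ∧ ∀ g ∈ S, c ≤ f4 (α g) := by
  have hKpos : 0 < ‖vec T‖ := by
    rw [norm_pos_iff]
    intro h
    apply hT0
    refine hsn_eq_zero hTe ?_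
    rw [← norm_vec, h, norm_zero, zero_pow two_ne_zero]
  obtain ⟨δ, hδpos, hδ1, hδ2⟩ : ∃ δ : ℝ, 0 < δ ∧ δ ≤ 1 ∧
      (2 * ‖vec T‖ + 1) * δ ≤ ‖vec T‖ ^ 2 / 2 := by
    refine ⟨min 1 (‖vec T‖ ^ 2 / (2 * (2 * ‖vec T‖ + 1))), lt_min one_pos (by positivity),
      min_le_left _ _, ?_⟩
    calc (2 * ‖vec T‖ + 1) * min 1 (‖vec T‖ ^ 2 / (2 * (2 * ‖vec T‖ + 1))) ≤
        (2 * ‖vec T‖ + 1) * (‖vec T‖ ^ 2 / (2 * (2 * ‖vec T‖ + 1))) := by
          gcongr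
          exact min_le_right _ _
      _ = ‖vec T‖ ^ 2 / 2 := by field_simp
  obtain ⟨F, hF⟩ := ((Metric.tendsto_nhds.mp (hasSum_dl (vec T))) δ hδpos).exists
  rw [dist_eq_norm] at hF
  have hR : ‖vec (T - ∑ k ∈ F, (vec T) k • EE k)‖ ≤ δ := by
    have hv1 : vec (∑ k ∈ F, (vec T) k • EE k) = ∑ k ∈ F, (vec T) k • dl k := by
      rw [map_sum]
      exact Finset.sum_congr rfl fun k _ => by rw [map_smul, vec_EE]
    rw [map_sub, hv1, norm_sub_rev]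
    exact hF.le
  exact ⟨‖vec T‖ ^ 2 / (2 * ((∑ k ∈ F, ‖(vec T) k‖) ^ 2 + 1)), by positivity, fun g hg =>
    lower_arith hKpos hδpos hδ1 hδ2 (f4_nonneg _) (lower_one_of hα hTe g (e1 g hg) F _ hR)⟩

namespace ItwH

variable {A : Subgroup Γ}

theorem comp_p (hT : ItwH α A T) (hα : AFrame p α) : T ∘L p = T := by
  have h1 := hT.inv 1 A.one_mem
  conv_lhs => rw [← h1]
  ext1 v
  change H367.A3 α (1, 1, 1) (T (α 1⁻¹ (p v))) = T v
  conv_rhs => rw [← h1]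
  change _ = H367.A3 α (1, 1, 1) (T (α 1⁻¹ v))
  rw [← mul_ap (α 1⁻¹) p, hα.mul_p]

theorem A3_one (hT : ItwH α A T) (hα : AFrame p α) : H367.A3 α 1 ∘L T = T := by
  have h1 := hT.inv 1 A.one_mem
  conv_lhs => rw [← h1]
  ext1 v
  change H367.A3 α 1 (H367.A3 α (1, 1, 1) (T (α 1⁻¹ v))) = T v
  conv_rhs => rw [← h1]
  change _ = H367.A3 α (1, 1, 1) (T (α 1⁻¹ v))
  rw [← mul_ap (H367.A3 α 1), hα.A3_mul, one_mul]

theorem alpha (hT : ItwH α A T) (hα : AFrame p α) {g : Γ} (hg : g ∈ A) :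
    T ∘L α g = H367.A3 α (g, g, g) ∘L T := by
  have h1 := hT.inv g hg
  conv_lhs => rw [← h1]
  ext1 v
  change H367.A3 α (g, g, g) (T (α g⁻¹ (α g v))) = H367.A3 α (g, g, g) (T v)
  rw [← mul_ap (α g⁻¹) (α g), hα.inv_mul_self]
  congr 1
  exact congrArg (fun L : Ell2 (I × Λ) →L[ℂ] _ => L v) (hT.comp_p hα)

theorem A3_one_ap (hT : ItwH α A T) (hα : AFrame p α) (v : Ell2 (I × Λ)) :
    H367.A3 α 1 (T v) = T v :=
  congrArg (fun L : Ell2 (I × Λ) →L[ℂ] _ => L v) (hT.A3_one hα)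

end ItwH

theorem pair_selfA (hα : AFrame p α) {A : Subgroup Γ} (hT : ItwH α A T) {g : Γ} (hg : g ∈ A) :
    ⟪vA (H367.A3 α (g, g, g)) T, vB (α g) T⟫_ℂ = (‖vec T‖ ^ 2 : ℝ) := by
  change ⟪vec (H367.A3 α (g, g, g) ∘L T), vec (T ∘L α g)⟫_ℂ = _
  rw [hT.alpha hα hg, inner_vec, norm_vec, ← hs_self]
  unfold hs
  refine Finset.sum_congr rfl fun i _ => ?_
  rw [comp_apply, ← adjoint_inner_right, hα.A3_adj, ← mul_ap, hα.A3_mul, inv_mul_cancel,
    hT.A3_one_ap hα]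

/-- A nonzero operator intertwining on `A` bounds the fourth power sums on `A` from below. -/
theorem lowerA (hα : AFrame p α) {A : Subgroup Γ} (hT : ItwH α A T) (hT0 : T ≠ 0) :
    ∃ c : ℝ, 0 < c ∧ ∀ g ∈ A, c ≤ f4 (α g) := by
  refine lower_set hα hT.eqv hT0 A fun g hg => ?_
  rw [pair_selfA hα hT hg, Complex.norm_real, Real.norm_of_nonneg (by positivity)]

end low

end Vale.Agent.P092.H423
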