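import Vale.Agent.P092.R2.H289.Conc
import Vale.Agent.P092.R3.H423.Common
import Vale.Agent.P092.R3.H367.Kaz

/-!
From an amplified frame on `ℓ²({0,…,m} × Λ)` to an abstract frame for the group `Λ × SG m`.
-/

set_option linter.all false

open scoped InnerProductSpace
open Filter Topology ContinuousLinearMap

namespace Vale.Agent.P092.H423

open Vale.Agent.P092.H160 Vale.Agent.P092.H367 Vale.Agent.P092.R2.H289

/-! ### Versions with a positive dimension instead of a module structure -/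

section gen

variable {A H H' : Type} [Group A] [NormedAddCommGroup H] [InnerProductSpace ℂ H]
  [CompleteSpace H] [NormedAddCommGroup H'] [InnerProductSpace ℂ H'] [CompleteSpace H']
  {m : ℕ} {β : A →* (H →L[ℂ] H)} {σ : Fin (m + 1) → H} {R : Fin (m + 1) → (H →L[ℂ] H')}

theorem sq_inv' (h : 0 < Mod.dm σ) : ((Real.sqrt (Mod.dm σ))⁻¹) ^ 2 = (Mod.dm σ)⁻¹ := by
  rw [inv_pow, Real.sq_sqrt h.le]

theorem norm_uu2 (h : 0 < Mod.dm σ) (hd : Dec R) : ‖uu' R σ‖ = 1 := by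
  have h1 : ‖uu' R σ‖ ^ 2 = 1 := by
    rw [hd.norm_sq]
    simp only [uu'_c hd, norm_smul, mul_pow, Complex.norm_real, Real.norm_eq_abs, sq_abs,
      sq_inv' h]
    rw [← Finset.mul_sum]
    exact inv_mul_cancel₀ h.ne'
  have := norm_nonneg (uu' R σ)
  nlinarith

theorem inner_uu2_amp (h : 0 < Mod.dm σ) (hd : Dec R) (X : H →L[ℂ] H) :
    ⟪uu' R σ, amp R X (uu' R σ)⟫_ℂ = ((Mod.dm σ)⁻¹ : ℝ) * phi σ X := by
  rw [hd.inner, phi, Finset.mul_sum]
  refine Finset.sum_congr rfl fun k _ => ?_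
  rw [hd.amp_c, uu'_c hd, map_smul, inner_smul_left, inner_smul_right, Complex.conj_ofReal,
    ← mul_assoc, ← Complex.ofReal_mul, ← sq, sq_inv' h]

theorem sum_w2 (h : 0 < Mod.dm σ) (hd : Dec R) (s : A) (v : H') :
    ∑ w : SG m, ‖⟪hd.be' β (s, w) (uu' R σ), v⟫_ℂ‖ ^ 2 =
      (2 ^ (m + 1) / Mod.dm σ) * ∑ k, ∑ i, ‖⟪β s (σ i), adjoint (R k) v⟫_ℂ‖ ^ 2 := by
  rw [SG.sum_eq]
  have h1 : ∀ c : Fin (m + 1), ∑ e : Fin (m + 1) → ℤˣ,
      ‖⟪hd.be' β (s, ⟨e, c⟩) (uu' R σ), v⟫_ℂ‖ ^ 2 =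
      (2 ^ (m + 1) / Mod.dm σ) * ∑ k, ‖⟪β s (σ (k - c)), adjoint (R k) v⟫_ℂ‖ ^ 2 := by
    intro c
    have h2 : ∀ e : Fin (m + 1) → ℤˣ, ‖⟪hd.be' β (s, ⟨e, c⟩) (uu' R σ), v⟫_ℂ‖ ^ 2 =
        (Mod.dm σ)⁻¹ * ‖∑ k, sgc (e k) * ⟪β s (σ (k - c)), adjoint (R k) v⟫_ℂ‖ ^ 2 := by
      intro e
      rw [be'_uu', norm_mul, mul_pow, Complex.norm_real, Real.norm_eq_abs, sq_abs, sq_inv' h]
    simp only [h2]
    rw [← Finset.mul_sum, sum_signs]
    ring
  simp only [h1]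
  rw [← Finset.mul_sum, Finset.sum_comm]
  congr 1
  refine Finset.sum_congr rfl fun k _ => ?_
  exact Equiv.sum_comp (Equiv.subLeft k) (fun i => ‖⟪β s (σ i), adjoint (R k) v⟫_ℂ‖ ^ 2)

theorem frame2 (h : 0 < Mod.dm σ) (hp : Par β σ) (hd : Dec R) (v : H') :
    HasSum (fun q => ‖⟪hd.be' β q (uu' R σ), v⟫_ℂ‖ ^ 2)
      ((2 ^ (m + 1) / Mod.dm σ) * ‖v‖ ^ 2) := by
  have h1 : HasSum (fun s => ∑ w : SG m, ‖⟪hd.be' β (s, w) (uu' R σ), v⟫_ℂ‖ ^ 2)
      ((2 ^ (m + 1) / Mod.dm σ) * ‖v‖ ^ 2) := by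
    simp only [sum_w2 h hd]
    rw [hd.norm_sq]
    exact (hasSum_sum fun k _ => hp.fib (adjoint (R k) v)).mul_left _
  have h2 : Summable (fun q : A × SG m => ‖⟪hd.be' β q (uu' R σ), v⟫_ℂ‖ ^ 2) := by
    rw [summable_prod_of_nonneg (fun _ => by positivity)]
    refine ⟨fun s => Summable.of_finite, ?_⟩
    simp only [tsum_fintype]
    exact h1.summable
  have h3 := h2.hasSum.prod_fiberwise fun s => hasSum_fintype _
  have h4 := h2.hasSum
  rw [← h1.unique h3] at h4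
  exact h4

end gen

/-! ### The range of the projection -/

section inc

variable {Λ Γ : Type} [Group Λ] [Group Γ] {m : ℕ}
  {p : Ell2 (Fin (m + 1) × Λ) →L[ℂ] Ell2 (Fin (m + 1) × Λ)}
  {α : Γ → (Ell2 (Fin (m + 1) × Λ) →L[ℂ] Ell2 (Fin (m + 1) × Λ))}
  {H : Type} [NormedAddCommGroup H] [InnerProductSpace ℂ H] [CompleteSpace H]
  {j : H →L[ℂ] Ell2 (Fin (m + 1) × Λ)}

/-- `j` is an isometry with range projection `p`. -/
structure Inc (p : Ell2 (Fin (m + 1) × Λ) →L[ℂ] Ell2 (Fin (m + 1) × Λ))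
    (j : H →L[ℂ] Ell2 (Fin (m + 1) × Λ)) : Prop where
  jj : ∀ v, adjoint j (j v) = v
  jq : ∀ w, j (adjoint j w) = p w

namespace Inc

theorem inj (hj : Inc p j) {v w : H} (h : j v = j w) : v = w := by
  rw [← hj.jj v, h, hj.jj]

theorem pj (hj : Inc p j) (v : H) : p (j v) = j v := by
  rw [← hj.jq, hj.jj]

theorem ajp (hj : Inc p j) (w : Ell2 (Fin (m + 1) × Λ)) : adjoint j (p w) = adjoint j w := by
  rw [← hj.jq, hj.jj]

theorem norm_j (hj : Inc p j) (v : H) : ‖j v‖ = ‖v‖ := by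
  have h2 : ⟪j v, j v⟫_ℂ = ⟪v, v⟫_ℂ := by
    rw [← adjoint_inner_left, hj.jj]
  rw [inner_self_eq_norm_sq_to_K, inner_self_eq_norm_sq_to_K] at h2
  have h3 : ‖j v‖ ^ 2 = ‖v‖ ^ 2 := by exact_mod_cast h2
  exact (pow_left_inj₀ (norm_nonneg _) (norm_nonneg _) two_ne_zero).mp h3

/-- the compressed frame -/
noncomputable def al (hj : Inc p j) (ha : AFrame p α) : Γ →* (H →L[ℂ] H) where
  toFun g := adjoint j ∘L α g ∘L j
  map_one' := by
    ext1 v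
    change adjoint j (α 1 (j v)) = v
    rw [ha.one, hj.ajp, hj.jj]
  map_mul' g h := by
    ext1 v
    change adjoint j (α (g * h) (j v)) = adjoint j (α g (j (adjoint j (α h (j v)))))
    rw [hj.jq, ← mul_ap p, ha.p_mul, ha.mul]
    rfl

theorem al_apply (hj : Inc p j) (ha : AFrame p α) (g : Γ) (v : H) :
    hj.al ha g v = adjoint j (α g (j v)) := rfl

theorem j_al (hj : Inc p j) (ha : AFrame p α) (g : Γ) (v : H) : j (hj.al ha g v) = α g (j v) := by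
  rw [al_apply, hj.jq, ← mul_ap p, ha.p_mul]

theorem adjoint_al (hj : Inc p j) (ha : AFrame p α) (g : Γ) :
    adjoint (hj.al ha g) = hj.al ha g⁻¹ := by
  change adjoint (adjoint j ∘L α g ∘L j) = adjoint j ∘L α g⁻¹ ∘L j
  rw [adjoint_comp, adjoint_comp, adjoint_adjoint, ha.adj]
  rfl

theorem p_Rr (ha : AFrame p α) (s : Λ) (w : Ell2 (Fin (m + 1) × Λ)) :
    p (Rr (Fin (m + 1)) s w) = Rr (Fin (m + 1)) s (p w) := ha.eqv_p s w

/-- the compressed right translations -/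
noncomputable def be (hj : Inc p j) (ha : AFrame p α) : Λ →* (H →L[ℂ] H) where
  toFun s := adjoint j ∘L Rr (Fin (m + 1)) s ∘L j
  map_one' := by
    ext1 v
    change adjoint j (Rr (Fin (m + 1)) 1 (j v)) = v
    rw [Rr_one]
    exact hj.jj v
  map_mul' s t := by
    ext1 v
    change adjoint j (Rr (Fin (m + 1)) (s * t) (j v)) =
      adjoint j (Rr (Fin (m + 1)) s (j (adjoint j (Rr (Fin (m + 1)) t (j v)))))
    rw [hj.jq, p_Rr ha, hj.pj, Rr_mul]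
    rfl

theorem be_apply (hj : Inc p j) (ha : AFrame p α) (s : Λ) (v : H) :
    hj.be ha s v = adjoint j (Rr (Fin (m + 1)) s (j v)) := rfl

theorem j_be (hj : Inc p j) (ha : AFrame p α) (s : Λ) (v : H) :
    j (hj.be ha s v) = Rr (Fin (m + 1)) s (j v) := by
  rw [be_apply, hj.jq, p_Rr ha, hj.pj]

theorem be_aj (hj : Inc p j) (ha : AFrame p α) (s : Λ) (w : Ell2 (Fin (m + 1) × Λ)) :
    hj.be ha s (adjoint j w) = adjoint j (Rr (Fin (m + 1)) s w) := by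
  rw [be_apply, hj.jq, ← p_Rr ha, hj.ajp]

theorem adjoint_be (hj : Inc p j) (ha : AFrame p α) (s : Λ) :
    adjoint (hj.be ha s) = hj.be ha s⁻¹ := by
  change adjoint (adjoint j ∘L Rr (Fin (m + 1)) s ∘L j) = adjoint j ∘L Rr (Fin (m + 1)) s⁻¹ ∘L j
  rw [adjoint_comp, adjoint_comp, adjoint_adjoint, adjoint_Rr]
  rfl

theorem al_cl (hj : Inc p j) (ha : AFrame p α) (g : Γ) : CL (hj.be ha) (hj.al ha g) := by
  intro s v
  apply hj.inj
  rw [hj.j_al, hj.j_be, hj.j_be, hj.j_al]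
  exact ha.eqv g s (j v)

/-- the generators -/
noncomputable def sg (j : H →L[ℂ] Ell2 (Fin (m + 1) × Λ)) (i : Fin (m + 1)) : H :=
  adjoint j (dl (i, 1))

theorem j_sg (hj : Inc p j) (i : Fin (m + 1)) : j (sg j i) = p (dl (i, 1)) := hj.jq _

theorem dm_eq (hj : Inc p j) : Mod.dm (sg j) = hsn p := by
  unfold Mod.dm hsn
  refine Finset.sum_congr rfl fun i _ => ?_
  rw [← hj.norm_j, hj.j_sg]

theorem dm_pos (hj : Inc p j) (ha : AFrame p α) : 0 < Mod.dm (sg j) := by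
  rw [hj.dm_eq]
  exact hsn_p_pos ha

theorem par (hj : Inc p j) (ha : AFrame p α) : Par (hj.be ha) (sg j) := by
  intro v
  have h2 : HasSum (fun q : Fin (m + 1) × Λ => ‖(j v) q‖ ^ 2) (‖v‖ ^ 2) := by
    rw [← hj.norm_j v, norm_sq]
    exact (summable_sq _).hasSum
  have h3 := ((Equiv.prodCongr (Equiv.inv Λ) (Equiv.refl (Fin (m + 1)))).trans
    (Equiv.prodComm Λ (Fin (m + 1)))).hasSum_iff.mpr h2
  have e : (fun q : Λ × Fin (m + 1) => ‖⟪hj.be ha q.1 (sg j q.2), v⟫_ℂ‖ ^ 2) =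
      (fun q : Fin (m + 1) × Λ => ‖(j v) q‖ ^ 2) ∘
        ((Equiv.prodCongr (Equiv.inv Λ) (Equiv.refl (Fin (m + 1)))).trans
          (Equiv.prodComm Λ (Fin (m + 1)))) := by
    funext q
    obtain ⟨s, i⟩ := q
    simp only [Function.comp_apply]
    rw [sg, hj.be_aj ha, Rr_dl, one_mul, adjoint_inner_left, inner_dl]
    rfl
  rw [e]
  exact h3

/-- Extension of an operator on the range by zero. -/
noncomputable def ex (j : H →L[ℂ] Ell2 (Fin (m + 1) × Λ)) (X : H →L[ℂ] H) :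
    Ell2 (Fin (m + 1) × Λ) →L[ℂ] Ell2 (Fin (m + 1) × Λ) := j ∘L X ∘L adjoint j

theorem ex_apply (X : H →L[ℂ] H) (w : Ell2 (Fin (m + 1) × Λ)) :
    ex j X w = j (X (adjoint j w)) := rfl

theorem ex_eqv (hj : Inc p j) (ha : AFrame p α) {X : H →L[ℂ] H} (hX : CL (hj.be ha) X) :
    Eqv (RrH (Fin (m + 1)) Λ) (ex j X) := by
  intro s w
  rw [RrH_apply, ex_apply, ex_apply, ← hj.be_aj ha, hX, hj.j_be]

theorem p_ex (hj : Inc p j) (X : H →L[ℂ] H) : p * ex j X = ex j X := by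
  ext1 w
  change p (j _) = j _
  exact hj.pj _

theorem ex_p (hj : Inc p j) (X : H →L[ℂ] H) : ex j X * p = ex j X := by
  ext1 w
  change j (X (adjoint j (p w))) = j (X (adjoint j w))
  rw [hj.ajp]

theorem ex_mul (hj : Inc p j) (X Y : H →L[ℂ] H) : ex j (X * Y) = ex j X * ex j Y := by
  ext1 w
  change j (X (Y (adjoint j w))) = j (X (adjoint j (j (Y (adjoint j w)))))
  rw [hj.jj]

theorem phi_eq (X : H →L[ℂ] H) : phi (sg j) X = Tr (ex j X) := by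
  unfold phi Tr
  refine Finset.sum_congr rfl fun i _ => ?_
  rw [ex_apply, sg, adjoint_inner_left]

theorem phi_al (hj : Inc p j) (ha : AFrame p α) (g : Γ) : phi (sg j) (hj.al ha g) = Tr (α g) := by
  rw [phi_eq]
  congr 1
  ext1 w
  rw [ex_apply, hj.j_al, hj.jq, ← mul_ap, ha.mul_p]

end Inc

end inc

/-! ### The frame for `Λ × SG m` -/

section frame

variable {Λ Γ : Type} [Group Λ] [Group Γ] {m : ℕ}
  {p : Ell2 (Fin (m + 1) × Λ) →L[ℂ] Ell2 (Fin (m + 1) × Λ)}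
  {α : Γ → (Ell2 (Fin (m + 1) × Λ) →L[ℂ] Ell2 (Fin (m + 1) × Λ))}
  {H H' : Type} [NormedAddCommGroup H] [InnerProductSpace ℂ H] [CompleteSpace H]
  [NormedAddCommGroup H'] [InnerProductSpace ℂ H'] [CompleteSpace H']
  {j : H →L[ℂ] Ell2 (Fin (m + 1) × Λ)} {R : Fin (m + 1) → (H →L[ℂ] H')}

open Inc in
theorem frA (hj : Inc p j) (ha : AFrame p α) (hd : Dec R) :
    Fr (hd.al' (hj.al ha)) (hd.be' (hj.be ha)) (uu' R (sg j))
      (2 ^ (m + 1) / Mod.dm (sg j)) where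
  tpos := by
    have := hj.dm_pos ha
    positivity
  adj g := by
    change adjoint (amp R (hj.al ha g)) = amp R (hj.al ha g⁻¹)
    rw [hd.amp_adj, hj.adjoint_al]
  adjβ q := by
    change adjoint (amp R (hj.be ha q.1) * ws R q.2) = amp R (hj.be ha q.1⁻¹) * ws R q.2⁻¹
    rw [← star_eq_adjoint, star_mul, star_eq_adjoint, star_eq_adjoint, hd.amp_adj, hd.ws_adj,
      hj.adjoint_be, hd.amp_ws]
  rc g q v := by
    obtain ⟨s, w⟩ := q
    refine hd.ext fun k => ?_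
    rw [hd.al'_c, hd.be'_c, hd.be'_c, hd.al'_c, map_smul, hj.al_cl ha g]
  norm_u := norm_uu2 (hj.dm_pos ha) hd
  frame := frame2 (hj.dm_pos ha) (hj.par ha) hd
  orth g hg := by
    change ⟪uu' R (sg j), amp R (hj.al ha g) (uu' R (sg j))⟫_ℂ = 0
    rw [inner_uu2_amp (hj.dm_pos ha) hd, hj.phi_al ha, ha.orth g hg, mul_zero]
  tr := by
    intro X Y hX hY
    obtain ⟨X0, hX0, rfl⟩ := cl_be' hd hX
    obtain ⟨Y0, hY0, rfl⟩ := cl_be' hd hY
    rw [← mul_ap, ← mul_ap, ← hd.amp_mul, ← hd.amp_mul, inner_uu2_amp (hj.dm_pos ha) hd,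
      inner_uu2_amp (hj.dm_pos ha) hd, phi_eq, phi_eq, hj.ex_mul, hj.ex_mul,
      trace_comm (hj.ex_eqv ha hX0) (hj.ex_eqv ha hY0)]
  tot := by
    intro X hX
    obtain ⟨X0, hX0, rfl⟩ := cl_be' hd hX
    have hdm := hj.dm_pos ha
    rw [← SetLike.mem_coe, Submodule.topologicalClosure_coe, Metric.mem_closure_iff]
    intro ε hε
    obtain ⟨F, c, hF⟩ := ha.tot (ex j X0) (hj.ex_eqv ha hX0) (hj.p_ex X0) (hj.ex_p X0)
      (Mod.dm (sg j) * (ε / 2) ^ 2) (by positivity)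
    refine ⟨∑ g ∈ F, c g • hd.al' (hj.al ha) g (uu' R (sg j)),
      Submodule.sum_mem _ fun g _ => Submodule.smul_mem _ _ (Submodule.subset_span ⟨g, rfl⟩), ?_⟩
    rw [dist_eq_norm]
    have h1 : ‖amp R X0 (uu' R (sg j)) - ∑ g ∈ F, c g • hd.al' (hj.al ha) g (uu' R (sg j))‖ ^ 2 =
        (Mod.dm (sg j))⁻¹ * hsn (ex j X0 - ∑ g ∈ F, c g • α g) := by
      rw [hd.norm_sq, hsn, Finset.mul_sum]
      refine Finset.sum_congr rfl fun k _ => ?_
      have h2 : adjoint (R k) (amp R X0 (uu' R (sg j)) -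
          ∑ g ∈ F, c g • hd.al' (hj.al ha) g (uu' R (sg j))) =
          (((Real.sqrt (Mod.dm (sg j)))⁻¹ : ℝ) : ℂ) • (X0 (sg j k) -
            ∑ g ∈ F, c g • hj.al ha g (sg j k)) := by
        rw [map_sub, hd.amp_c, uu'_c hd, map_smul, map_sum, smul_sub, Finset.smul_sum]
        congr 1
        refine Finset.sum_congr rfl fun g _ => ?_
        rw [map_smul, hd.al'_c, uu'_c hd, map_smul, smul_comm]
      have h3 : j (X0 (sg j k) - ∑ g ∈ F, c g • hj.al ha g (sg j k)) =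
          (ex j X0 - ∑ g ∈ F, c g • α g) (dl (k, 1)) := by
        rw [map_sub, map_sum, sub_apply, sum_apply]
        congr 1
        refine Finset.sum_congr rfl fun g _ => ?_
        rw [map_smul, hj.j_al, hj.j_sg, ← mul_ap (α g) p, ha.mul_p]
        rfl
      rw [h2, norm_smul, mul_pow, Complex.norm_real, Real.norm_eq_abs, sq_abs, sq_inv' hdm,
        ← hj.norm_j, h3]
    have h4 : ‖amp R X0 (uu' R (sg j)) -
        ∑ g ∈ F, c g • hd.al' (hj.al ha) g (uu' R (sg j))‖ ^ 2 ≤ (ε / 2) ^ 2 := by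
      rw [h1]
      calc (Mod.dm (sg j))⁻¹ * hsn (ex j X0 - ∑ g ∈ F, c g • α g)
          ≤ (Mod.dm (sg j))⁻¹ * (Mod.dm (sg j) * (ε / 2) ^ 2) := by gcongr
        _ = (ε / 2) ^ 2 := by field_simp
    have h5 := (pow_le_pow_iff_left₀ (norm_nonneg _) (by positivity) two_ne_zero).mp h4
    linarith

open Inc in
/-- The matrix coefficients. -/
theorem coef_eqA (hj : Inc p j) (ha : AFrame p α) (s : Λ) (i l : Fin (m + 1)) (g : Γ) :
    ⟪hj.be ha s (sg j i), hj.al ha g (sg j l)⟫_ℂ = (α g (dl (l, 1))) (i, s⁻¹) := by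
  rw [sg, hj.be_aj ha, Rr_dl, one_mul, adjoint_inner_left, hj.j_al, inner_dl, hj.j_sg,
    ← mul_ap (α g) p, ha.mul_p]

open Inc in
theorem coef_uu (hj : Inc p j) (ha : AFrame p α) (hd : Dec R) (s : Λ) (w : SG m) (g : Γ) :
    ⟪hd.be' (hj.be ha) (s, w) (uu' R (sg j)), hd.al' (hj.al ha) g (uu' R (sg j))⟫_ℂ =
      ((Mod.dm (sg j))⁻¹ : ℝ) * ∑ k, sgc (w.e k) * (α g (dl (k, 1))) (k - w.c, s⁻¹) := by
  rw [be'_uu', ← sq_inv' (hj.dm_pos ha), sq, Complex.ofReal_mul, mul_assoc]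
  congr 1
  rw [Finset.mul_sum]
  refine Finset.sum_congr rfl fun k _ => ?_
  rw [hd.al'_c, uu'_c hd, map_smul, inner_smul_right, coef_eqA]
  ring

open Inc in
/-- The heights are bounded by the heights of the coefficients for `Λ × SG m`. -/
theorem height_leA (hj : Inc p j) (ha : AFrame p α) (hd : Dec R) (g : Γ) :
    ⨆ q : (Fin (m + 1) × Λ) × Fin (m + 1), ‖(α g (dl (q.2, 1))) q.1‖ ≤
      Mod.dm (sg j) * ⨆ q, ‖⟪hd.be' (hj.be ha) q (uu' R (sg j)),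
        hd.al' (hj.al ha) g (uu' R (sg j))⟫_ℂ‖ := by
  have F2 := frA hj ha hd
  have hbdd : BddAbove (Set.range fun q =>
      ‖⟪hd.be' (hj.be ha) q (uu' R (sg j)), hd.al' (hj.al ha) g (uu' R (sg j))⟫_ℂ‖) := by
    refine ⟨‖F2.cc (hd.al' (hj.al ha) g (uu' R (sg j)))‖, ?_⟩
    rintro _ ⟨q, rfl⟩
    have h1 := norm_coord_le (F2.cc (hd.al' (hj.al ha) g (uu' R (sg j)))) q⁻¹
    rw [F2.cc_apply, inv_inv] at h1
    exact h1
  refine ciSup_le ?_
  rintro ⟨⟨i, s⟩, l⟩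
  simp only
  set z : Fin (m + 1) → ℂ := fun k => (α g (dl (k, 1))) (k - (l - i), s) with hz
  have hzj : z l = (α g (dl (l, 1))) (i, s) := by
    rw [hz]
    simp only
    rw [sub_sub_cancel]
  have h1 : ∃ e : Fin (m + 1) → ℤˣ, ‖z l‖ ≤ ‖∑ k, sgc (e k) * z k‖ := by
    by_contra hcon
    push Not at hcon
    have h2 := sum_signs z
    have h3 : ∑ e : Fin (m + 1) → ℤˣ, ‖∑ k, sgc (e k) * z k‖ ^ 2 <
        ∑ e : Fin (m + 1) → ℤˣ, ‖z l‖ ^ 2 := by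
      refine Finset.sum_lt_sum_of_nonempty Finset.univ_nonempty fun e _ => ?_
      have := hcon e
      gcongr
    rw [h2] at h3
    simp only [Finset.sum_const, Finset.card_univ, Fintype.card_pi, Fintype.card_units_int,
      Finset.prod_const, Fintype.card_fin, nsmul_eq_mul] at h3
    push_cast at h3
    have h4 : ‖z l‖ ^ 2 ≤ ∑ k, ‖z k‖ ^ 2 :=
      Finset.single_le_sum (f := fun k => ‖z k‖ ^ 2) (fun _ _ => by positivity)
        (Finset.mem_univ l)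
    have h5 : (0 : ℝ) < 2 ^ (m + 1) := by positivity
    nlinarith
  obtain ⟨e, he⟩ := h1
  have h2 := coef_uu hj ha hd s⁻¹ ⟨e, l - i⟩ g
  simp only [inv_inv] at h2
  have h3 := le_ciSup hbdd (s⁻¹, ⟨e, l - i⟩)
  rw [h2, norm_mul, Complex.norm_real,
    Real.norm_of_nonneg (inv_nonneg.mpr (hj.dm_pos ha).le)] at h3
  rw [← hzj]
  have h4 := hj.dm_pos ha
  calc ‖z l‖ ≤ ‖∑ k, sgc (e k) * z k‖ := he
    _ = Mod.dm (sg j) * ((Mod.dm (sg j))⁻¹ * ‖∑ k, sgc (e k) * z k‖) := by field_simp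
    _ ≤ _ := by gcongr

theorem four_sum {M : ℕ} (a : Fin M → ℝ) (ha : ∀ k, 0 ≤ a k) :
    (∑ k, a k) ^ 4 ≤ (M : ℝ) ^ 3 * ∑ k, a k ^ 4 := by
  have h1 : (∑ k, a k) ^ 2 ≤ M * ∑ k, a k ^ 2 := by
    have := sq_sum_le_card_mul_sum_sq (s := (Finset.univ : Finset (Fin M))) (f := a)
    simpa using this
  have h2 : (∑ k, a k ^ 2) ^ 2 ≤ M * ∑ k, a k ^ 4 := by
    have := sq_sum_le_card_mul_sum_sq (s := (Finset.univ : Finset (Fin M)))
      (f := fun k => a k ^ 2)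
    simp only [Finset.card_univ, Fintype.card_fin] at this
    refine this.trans (le_of_eq ?_)
    congr 1
    refine Finset.sum_congr rfl fun k _ => by ring
  calc (∑ k, a k) ^ 4 = ((∑ k, a k) ^ 2) ^ 2 := by ring
    _ ≤ (M * ∑ k, a k ^ 2) ^ 2 := by gcongr
    _ = M ^ 2 * (∑ k, a k ^ 2) ^ 2 := by ring
    _ ≤ M ^ 2 * (M * ∑ k, a k ^ 4) := by gcongr
    _ = _ := by ring

theorem norm_sgc (z : ℤˣ) : ‖sgc z‖ = 1 := by
  rcases Int.units_eq_one_or z with rfl | rfl <;> simp [sgc]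

open Inc in
/-- The fourth power sum for `Λ × SG m` is bounded by the one of the matrix. -/
theorem p4c_leA (hj : Inc p j) (ha : AFrame p α) (hd : Dec R) :
    ∃ C : ℝ, 0 < C ∧ ∀ g, p4c (fun g => (frA hj ha hd).tp (hd.al' (hj.al ha) g)) g ≤
      C * f4 (α g) := by
  have hdm := hj.dm_pos ha
  set F2 := frA hj ha hd with hF2
  set t : ℝ := 2 ^ (m + 1) / Mod.dm (sg j) with ht
  have htp : 0 < t := F2.tpos
  set C1 : ℝ := t⁻¹ ^ 4 * ((Mod.dm (sg j))⁻¹ ^ 4 * ((m + 1 : ℕ) : ℝ) ^ 3) with hC1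
  have hC1p : 0 < C1 := by positivity
  refine ⟨C1 * (Fintype.card (SG m) + 1), by positivity, fun g => ?_⟩
  have hf4 : 0 ≤ f4 (α g) := Finset.sum_nonneg fun _ _ => tsum_nonneg fun _ => by positivity
  have hpt : ∀ (s : Λ) (w : SG m),
      ‖(F2.tp (hd.al' (hj.al ha) g) (dl 1)) (s, w)⁻¹‖ ^ 4 ≤
        C1 * ∑ k, ‖(α g (dl (k, 1))) (k - w.c, s⁻¹)‖ ^ 4 := by
    intro s w
    have e1 := F2.tp_dl_apply g (s, w)⁻¹
    rw [inv_inv] at e1
    rw [e1, coef_uu hj ha hd, norm_mul, Complex.norm_real,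
      Real.norm_of_nonneg (inv_nonneg.mpr hdm.le), mul_pow, mul_pow, hC1]
    have e2 : ‖∑ k, sgc (w.e k) * (α g (dl (k, 1))) (k - w.c, s⁻¹)‖ ^ 4 ≤
        ((m + 1 : ℕ) : ℝ) ^ 3 * ∑ k, ‖(α g (dl (k, 1))) (k - w.c, s⁻¹)‖ ^ 4 := by
      calc _ ≤ (∑ k, ‖(α g (dl (k, 1))) (k - w.c, s⁻¹)‖) ^ 4 := by
            refine pow_le_pow_left₀ (norm_nonneg _) ?_ 4
            refine (norm_sum_le _ _).trans (le_of_eq ?_)
            refine Finset.sum_congr rfl fun k _ => ?_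
            rw [norm_mul, norm_sgc, one_mul]
        _ ≤ _ := four_sum _ fun k => norm_nonneg _
    calc _ ≤ t⁻¹ ^ 4 * ((Mod.dm (sg j))⁻¹ ^ 4 * (((m + 1 : ℕ) : ℝ) ^ 3 *
          ∑ k, ‖(α g (dl (k, 1))) (k - w.c, s⁻¹)‖ ^ 4)) := by gcongr
      _ = _ := by ring
  have hsl : ∀ (S : Finset Λ) (w : SG m),
      ∑ s ∈ S, ∑ k, ‖(α g (dl (k, 1))) (k - w.c, s⁻¹)‖ ^ 4 ≤ f4 (α g) := by
    intro S w
    rw [Finset.sum_comm, f4]
    refine Finset.sum_le_sum fun k _ => ?_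
    have hinj : Function.Injective (fun s : Λ => ((k - w.c, s⁻¹) : Fin (m + 1) × Λ)) := by
      intro a b hab
      exact inv_injective (congrArg Prod.snd hab)
    have h1 := (summable_four (α g (dl (k, 1)))).sum_le_tsum
      (S.map ⟨fun s : Λ => ((k - w.c, s⁻¹) : Fin (m + 1) × Λ), hinj⟩)
      (fun _ _ => by positivity)
    rw [Finset.sum_map] at h1
    exact h1
  rw [p4c, ← (Equiv.inv (Λ × SG m)).tsum_eq]
  refine Real.tsum_le_of_sum_le (fun _ => by positivity) fun S => ?_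
  classical
  calc ∑ q ∈ S, ‖(F2.tp (hd.al' (hj.al ha) g) (dl 1)) (Equiv.inv (Λ × SG m) q)‖ ^ 4
      ≤ ∑ q ∈ (S.image Prod.fst) ×ˢ (Finset.univ : Finset (SG m)),
        ‖(F2.tp (hd.al' (hj.al ha) g) (dl 1)) (Equiv.inv (Λ × SG m) q)‖ ^ 4 := by
        refine Finset.sum_le_sum_of_subset_of_nonneg (fun q hq => ?_)
          (fun _ _ _ => by positivity)
        exact Finset.mem_product.mpr ⟨Finset.mem_image_of_mem _ hq, Finset.mem_univ _⟩
    _ = ∑ w, ∑ s ∈ S.image Prod.fst,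
        ‖(F2.tp (hd.al' (hj.al ha) g) (dl 1)) (s, w)⁻¹‖ ^ 4 := by
        rw [Finset.sum_product, Finset.sum_comm]
        rfl
    _ ≤ ∑ w : SG m, ∑ s ∈ S.image Prod.fst,
        C1 * ∑ k, ‖(α g (dl (k, 1))) (k - w.c, s⁻¹)‖ ^ 4 :=
        Finset.sum_le_sum fun w _ => Finset.sum_le_sum fun s _ => hpt s w
    _ ≤ ∑ w : SG m, C1 * f4 (α g) := by
        refine Finset.sum_le_sum fun w _ => ?_
        rw [← Finset.mul_sum]
        have := hsl (S.image Prod.fst) w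
        gcongr
    _ = C1 * Fintype.card (SG m) * f4 (α g) := by
        rw [Finset.sum_const, Finset.card_univ, nsmul_eq_mul]
        ring
    _ ≤ C1 * (Fintype.card (SG m) + 1) * f4 (α g) := by
        gcongr
        linarith

end frame

end Vale.Agent.P092.H423
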