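import Vale.Agent.P092.R3.H423.FrA

/-!
Finite index subgroups of `SL_n(ℤ)`, amplified frames: non-vanishing heights along a unipotent
element give a lower bound for the fourth power sums, and hence a nonzero cubic intertwiner.
-/

set_option linter.all false

open scoped InnerProductSpace
open Filter Topology ContinuousLinearMap

namespace Vale.Agent.P092.H423

open Vale.Agent.P092.H160 Vale.Agent.P092.H367 Vale.Agent.P092.R2.H289

/-! ### Lower bounds give an intertwiner -/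

section lower

variable {I Λ Γ : Type} [Fintype I] [Group Λ] [Group Γ]
  {p : Ell2 (I × Λ) →L[ℂ] Ell2 (I × Λ)} {α : Γ → (Ell2 (I × Λ) →L[ℂ] Ell2 (I × Λ))}

/-- If the fourth power sums are bounded below, there is a nonzero intertwiner. -/
theorem itw_of_lower (ha : AFrame p α) {c : ℝ} (hc : 0 < c) (h : ∀ g, c ≤ f4 (α g)) :
    ∃ T, Itw3 α T ∧ T ≠ 0 := by
  rcases itw_or_zero ha with h1 | h1
  · exact h1
  · exfalso
    have hcl : IsClosed {ω : Ell2 (I × ((I × Λ) × (I × Λ) × (I × Λ))) |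
        c ≤ (⟪vec (Tg α 1), ω⟫_ℂ).re} :=
      isClosed_le continuous_const (by fun_prop)
    have hcv : Cvx {S : Ell2 (I × Λ) →L[ℂ] Ell2 ((I × Λ) × (I × Λ) × (I × Λ)) |
        c ≤ (⟪vec (Tg α 1), vec S⟫_ℂ).re} := by
      intro S hS T hT a b ha' hb hab
      rw [Set.mem_setOf_eq] at hS hT ⊢
      rw [map_add, map_smul, map_smul, inner_add_right, inner_smul_right, inner_smul_right,
        Complex.add_re, Complex.re_ofReal_mul, Complex.re_ofReal_mul]
      calc c = a * c + b * c := by rw [← add_mul, hab, one_mul]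
        _ ≤ _ := by gcongr
    have h2 : KK α ⊆ {ω | c ≤ (⟪vec (Tg α 1), ω⟫_ℂ).re} := by
      refine closure_minimal ?_ hcl
      rintro _ ⟨S, hS, rfl⟩
      refine hull_subset hcv ?_ hS
      rintro _ ⟨g, rfl⟩
      rw [Set.mem_setOf_eq, coeff_f4 ha, Complex.ofReal_re]
      exact h g
    have h3 := h2 h1
    rw [Set.mem_setOf_eq, inner_zero_right, Complex.zero_re] at h3
    linarith

end lower

/-! ### The range of a projection as a Hilbert space -/

section range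

variable {Λ : Type} [Group Λ] {m : ℕ}
  {p : Ell2 (Fin (m + 1) × Λ) →L[ℂ] Ell2 (Fin (m + 1) × Λ)}

/-- The range of the projection. -/
noncomputable def rgp (p : Ell2 (Fin (m + 1) × Λ) →L[ℂ] Ell2 (Fin (m + 1) × Λ)) :
    Submodule ℂ (Ell2 (Fin (m + 1) × Λ)) :=
  LinearMap.ker ((1 - p : Ell2 (Fin (m + 1) × Λ) →L[ℂ] Ell2 (Fin (m + 1) × Λ)) :
    Ell2 (Fin (m + 1) × Λ) →ₗ[ℂ] Ell2 (Fin (m + 1) × Λ))

theorem mem_rgp {v : Ell2 (Fin (m + 1) × Λ)} : v ∈ rgp p ↔ p v = v := by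
  rw [rgp, LinearMap.mem_ker]
  change v - p v = 0 ↔ _
  rw [sub_eq_zero, eq_comm]

instance : CompleteSpace (rgp p) := by
  have h1 : IsClosed (rgp p : Set (Ell2 (Fin (m + 1) × Λ))) :=
    (1 - p : Ell2 (Fin (m + 1) × Λ) →L[ℂ] Ell2 (Fin (m + 1) × Λ)).isClosed_ker
  exact h1.completeSpace_coe

theorem inc_rgp (h1 : adjoint p = p) (h2 : p * p = p) : Inc p (rgp p).subtypeL := by
  have h2' : ∀ v, p (p v) = p v := fun v =>
    congrArg (fun S : Ell2 (Fin (m + 1) × Λ) →L[ℂ] Ell2 (Fin (m + 1) × Λ) => S v) h2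
  have hq : ∀ v : rgp p, p ((rgp p).subtypeL v) = (rgp p).subtypeL v := fun v => mem_rgp.mp v.2
  have key : ∀ w, adjoint (rgp p).subtypeL w = ⟨p w, mem_rgp.mpr (h2' w)⟩ := by
    intro w
    refine ext_inner_left ℂ fun v => ?_
    rw [adjoint_inner_right, ← hq v]
    rw [← adjoint_inner_right, h1]
    rfl
  refine ⟨fun v => ?_, fun w => ?_⟩
  · rw [key]
    apply Subtype.ext
    exact hq v
  · rw [key]
    rfl

end range

/-! ### The main step -/

section main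

open Matrix

variable {n : ℕ} {Γ : Subgroup (Matrix.SpecialLinearGroup (Fin n) ℤ)} [Γ.FiniteIndex]
  {Λ : Type} [Group Λ] {m : ℕ}
  {p : Ell2 (Fin (m + 1) × Λ) →L[ℂ] Ell2 (Fin (m + 1) × Λ)}
  {α : Γ → (Ell2 (Fin (m + 1) × Λ) →L[ℂ] Ell2 (Fin (m + 1) × Λ))}

/-- The height of a matrix over `L(Λ)`: the supremum of the absolute values of all the
coefficients. -/
noncomputable def hgA (A : Ell2 (Fin (m + 1) × Λ) →L[ℂ] Ell2 (Fin (m + 1) × Λ)) : ℝ :=
  ⨆ q : (Fin (m + 1) × Λ) × Fin (m + 1), ‖(A (dl (q.2, 1))) q.1‖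

/-- Non-vanishing heights along a unipotent give a lower bound for the fourth power sums,
abstract form. -/
theorem lower_of_heights' {H H' : Type} [NormedAddCommGroup H] [InnerProductSpace ℂ H]
    [CompleteSpace H] [NormedAddCommGroup H'] [InnerProductSpace ℂ H'] [CompleteSpace H']
    {j : H →L[ℂ] Ell2 (Fin (m + 1) × Λ)} {R : Fin (m + 1) → (H →L[ℂ] H')}
    (hj : Inc p j) (hd : Dec R) (ha : AFrame p α) (hn : 3 ≤ n)
    (hΓ : ∀ g ∈ Γ, (g : Matrix (Fin n) (Fin n) ℤ) ≠ -1) (x : Γ) (k : ℕ) (hxk : x ^ k ≠ 1)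
    (hnil : IsNilpotent ((((x ^ k : Γ) : SpecialLinearGroup (Fin n) ℤ) :
      Matrix (Fin n) (Fin n) ℤ) - 1))
    (hnot : ¬ Tendsto (fun N : ℕ => (∑ i ∈ Finset.range N, hgA (α (x ^ (i + 1)))) / N)
      atTop (𝓝 0)) : ∃ c : ℝ, 0 < c ∧ ∀ g, c ≤ f4 (α g) := by
  have hF := frA hj ha hd
  have hdm := hj.dm_pos ha
  have hnot' : ¬ Tendsto (fun N : ℕ => (∑ i ∈ Finset.range N,
      ⨆ q, ‖⟪hd.be' (hj.be ha) q (uu' R (Inc.sg j)),
        hd.al' (hj.al ha) (x ^ (i + 1)) (uu' R (Inc.sg j))⟫_ℂ‖) / N)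
      atTop (𝓝 0) := by
    intro h
    apply hnot
    have h1 := h.const_mul (Mod.dm (Inc.sg j))
    rw [mul_zero] at h1
    refine squeeze_zero (fun N => ?_) (fun N => ?_) h1
    · refine div_nonneg (Finset.sum_nonneg fun i _ => ?_) (Nat.cast_nonneg _)
      exact Real.iSup_nonneg fun s => norm_nonneg _
    · rw [← mul_div_assoc, Finset.mul_sum]
      gcongr with i _
      exact height_leA hj ha hd (x ^ (i + 1))
  obtain ⟨ξ, hξ, ht⟩ := hF.exists_tight x hnot'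
  have ht' : hF.TH (Set.range fun l : ℤ => hd.al' (hj.al ha) ((x ^ k) ^ l) ξ) := by
    refine Fr.TH.mono ht ?_
    rintro _ ⟨l, rfl⟩
    refine ⟨(k : ℤ) * l, ?_⟩
    simp only
    rw [_root_.zpow_mul, zpow_natCast]
  have hT := hF.part_two hn hΓ (x ^ k) hxk hnil ξ hξ ht'
  obtain ⟨c, hc, hp⟩ := hF.p4c_of_tight hT
  obtain ⟨C, hC, hle⟩ := p4c_leA hj ha hd
  refine ⟨c / C, div_pos hc hC, fun g => ?_⟩
  rw [div_le_iff₀ hC, mul_comm]
  exact (hp g).trans (hle g)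

/-- Non-vanishing heights along a unipotent give a lower bound for the fourth power sums. -/
theorem lower_of_heights (ha : AFrame p α) (hn : 3 ≤ n)
    (hΓ : ∀ g ∈ Γ, (g : Matrix (Fin n) (Fin n) ℤ) ≠ -1) (x : Γ) (k : ℕ) (hxk : x ^ k ≠ 1)
    (hnil : IsNilpotent ((((x ^ k : Γ) : SpecialLinearGroup (Fin n) ℤ) :
      Matrix (Fin n) (Fin n) ℤ) - 1))
    (hnot : ¬ Tendsto (fun N : ℕ => (∑ i ∈ Finset.range N, hgA (α (x ^ (i + 1)))) / N)
      atTop (𝓝 0)) : ∃ c : ℝ, 0 < c ∧ ∀ g, c ≤ f4 (α g) :=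
  lower_of_heights' (inc_rgp ha.p_adj ha.p_idem) (dec_Rp (H := rgp p) (m := m)) ha hn hΓ x k hxk
    hnil hnot

/-- **Heights.** For a finite index subgroup of `SL_n(ℤ)`, `n ≥ 3`, without `-1`, and any
amplified frame: either there is a nonzero cubic intertwiner, or the heights vanish on average
along every element with a nontrivial unipotent power. -/
theorem itw_or_heights (ha : AFrame p α) (hn : 3 ≤ n)
    (hΓ : ∀ g ∈ Γ, (g : Matrix (Fin n) (Fin n) ℤ) ≠ -1) :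
    (∃ T, Itw3 α T ∧ T ≠ 0) ∨ ∀ (x : Γ) (k : ℕ), x ^ k ≠ 1 →
      IsNilpotent ((((x ^ k : Γ) : SpecialLinearGroup (Fin n) ℤ) :
        Matrix (Fin n) (Fin n) ℤ) - 1) →
      Tendsto (fun N : ℕ => (∑ i ∈ Finset.range N, hgA (α (x ^ (i + 1)))) / N)
        atTop (𝓝 0) := by
  by_contra hcon
  push Not at hcon
  obtain ⟨h1, x, k, hxk, hnil, hnot⟩ := hcon
  obtain ⟨c, hc, h2⟩ := lower_of_heights ha hn hΓ x k hxk hnil hnot
  obtain ⟨T, hT, hT0⟩ := itw_of_lower ha hc h2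
  exact hT0 (h1 T hT)

end main

end Vale.Agent.P092.H423
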