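import Vale.Agent.P092.R3.H367.Unif
import Vale.Agent.P092.R3.H423.Hts
import Vale.Agent.P092.R3.H423.StHt

/-!
Finite index subgroups of `SL_N(ℤ)`, `N ≥ 3`: an isomorphism onto a corner of matrices over
`L(Λ)` is canonical, or the heights vanish on average along every element with a nontrivial
unipotent power. Elementary form.
-/

set_option linter.all false

open scoped InnerProductSpace
open Filter Topology ContinuousLinearMap

namespace Vale.Agent.P092.H423

open Vale.Agent.P092.H160 Vale.Agent.P092.H367 Matrix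

theorem hgA_opM {n : ℕ} {Λ : Type} [Group Λ] {A : Mt.Mat n Λ} (hA : Mt.InM A) :
    hgA (opM A) = Mt.height A := by
  unfold hgA Mt.height
  have h1 : ∀ q : (Fin (n + 1) × Λ) × Fin (n + 1), ‖(opM A (dl (q.2, 1))) q.1‖ =
      ‖H160.St.tr (H160.St.mul (A q.1.1 q.2) (H160.St.u q.1.2⁻¹))‖ := by
    intro q
    have h2 := tr_ent ((inM_opM A).mpr hA) q.1.1 q.2 q.1.2
    rw [ent_opM] at h2
    rw [h2]
  simp only [h1]
  apply Equiv.iSup_congr
    ({ toFun := fun q => (q.1.1, q.2, q.1.2)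
       invFun := fun q => ((q.1, q.2.2), q.2.1)
       left_inv := fun _ => rfl
       right_inv := fun _ => rfl } :
      (Fin (n + 1) × Λ) × Fin (n + 1) ≃ Fin (n + 1) × Fin (n + 1) × Λ)
  intro q
  rfl

/-- **Part 3.** -/
theorem canon_or_heights {N : ℕ} (hN : 3 ≤ N)
    (Γ : Subgroup (Matrix.SpecialLinearGroup (Fin N) ℤ)) [Γ.FiniteIndex]
    (hΓ : ∀ g ∈ Γ, (g : Matrix (Fin N) (Fin N) ℤ) ≠ -1) {Λ : Type} [Group Λ] (hL : Mt.ICC Λ)
    {n : ℕ} {p : Mt.Mat n Λ} (hp : Mt.IsProj p) (θ : Mt.AmpIso Γ Λ n p) :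
    (Mt.Canon θ ∧ Mt.trM p = 1) ∨ ∀ (x : Γ) (k : ℕ), x ^ k ≠ 1 →
      IsNilpotent ((((x ^ k : Γ) : SpecialLinearGroup (Fin N) ℤ) :
        Matrix (Fin N) (Fin N) ℤ) - 1) → Mt.HV θ x := by
  have hG := icc_of_fi (by omega : 2 ≤ N) Γ hΓ
  have ha := aframe_of hG (isProj_opM hp) (ofMt θ)
  rcases itw_or_heights ha hN hΓ with ⟨T, hT, hT0⟩ | h
  · left
    have hc := canonAmp_of_canW (ofMt θ) (canW_of_itw ha hG hL hT hT0)
    have ht := trM_of_canonAmp (ofMt θ) hc
    rw [trM_opM] at ht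
    exact ⟨(canon_iff θ).mpr hc, ht⟩
  · right
    intro x k hxk hnil
    refine (h x k hxk hnil).congr fun M => ?_
    congr 1
    refine Finset.sum_congr rfl fun i _ => ?_
    rw [ofMt_apply]
    exact hgA_opM (θ.map_mem _ ((inL_iff _).mpr (lam_mem_LG _))).1

end Vale.Agent.P092.H423
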