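import Vale.Agent.P092.R3.H423.Part3
import Vale.Agent.P092.R3.H423.SubHom

/-!
If the heights vanish on average along one element `x`, then the fourth power sums decay along the
random walks of every subgroup which contains `x`, also relative to smaller subgroups containing
`x`. For finite index subgroups of `SL_N(ℤ)`, `N ≥ 3`, an isomorphism onto a corner of matrices
over `L(Λ)` is canonical, or this happens for every element with a nontrivial unipotent power.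
-/

set_option linter.all false

open scoped InnerProductSpace
open Filter Topology ContinuousLinearMap

namespace Vale.Agent.P092.H423

open Vale.Agent.P092.H160 Vale.Agent.P092.H367 Vale.Agent.P092.H885 Matrix

section hgt

variable {Λ Γ : Type} [Group Λ] [Group Γ] {m : ℕ}
  {p : Ell2 (Fin (m + 1) × Λ) →L[ℂ] Ell2 (Fin (m + 1) × Λ)}
  {α : Γ → (Ell2 (Fin (m + 1) × Λ) →L[ℂ] Ell2 (Fin (m + 1) × Λ))}

theorem le_hgA (ha : AFrame p α) (g : Γ) (q : (Fin (m + 1) × Λ) × Fin (m + 1)) :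
    ‖(α g (dl (q.2, 1))) q.1‖ ≤ hgA (α g) := by
  refine le_ciSup (f := fun q : (Fin (m + 1) × Λ) × Fin (m + 1) => ‖(α g (dl (q.2, 1))) q.1‖)
    ⟨1, ?_⟩ q
  rintro _ ⟨q', rfl⟩
  refine (norm_coord_le _ _).trans ((ha.norm_le g _).trans ?_)
  rw [norm_dl]

theorem f4_le_hgA (ha : AFrame p α) (g : Γ) : f4 (α g) ≤ hgA (α g) ^ 2 * (m + 1) := by
  have h0 : 0 ≤ hgA (α g) := Real.iSup_nonneg fun _ => norm_nonneg _
  have h1 : ∀ i : Fin (m + 1), ∑' y, ‖α g (dl (i, 1)) y‖ ^ 4 ≤ hgA (α g) ^ 2 := by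
    intro i
    have h2 : ∑' y, ‖α g (dl (i, 1)) y‖ ^ 4 ≤
        ∑' y, hgA (α g) ^ 2 * ‖α g (dl (i, 1)) y‖ ^ 2 := by
      refine (summable_four _).tsum_le_tsum (fun y => ?_) ((summable_sq _).mul_left _)
      have h3 := le_hgA ha g (y, i)
      calc ‖α g (dl (i, 1)) y‖ ^ 4 = ‖α g (dl (i, 1)) y‖ ^ 2 * ‖α g (dl (i, 1)) y‖ ^ 2 := by ring
        _ ≤ hgA (α g) ^ 2 * ‖α g (dl (i, 1)) y‖ ^ 2 := by
            gcongr
    rw [tsum_mul_left] at h2
    have h4 : ∑' y, ‖α g (dl (i, 1)) y‖ ^ 2 = ‖α g (dl (i, 1))‖ ^ 2 := (norm_sq _).symm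
    have h5 : ‖α g (dl (i, 1))‖ ≤ 1 := (ha.norm_le g _).trans (by rw [norm_dl])
    rw [h4] at h2
    calc _ ≤ hgA (α g) ^ 2 * ‖α g (dl (i, 1))‖ ^ 2 := h2
      _ ≤ hgA (α g) ^ 2 * 1 ^ 2 := by gcongr
      _ = _ := by ring
  unfold f4
  calc _ ≤ ∑ _i : Fin (m + 1), hgA (α g) ^ 2 := Finset.sum_le_sum fun i _ => h1 i
    _ = _ := by
        rw [Finset.sum_const, Finset.card_univ, Fintype.card_fin, nsmul_eq_mul]
        push_cast
        ring

/-- Lower bounds of the fourth power sums along `x` prevent the heights from vanishing on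
average. -/
theorem not_hv (ha : AFrame p α) {c : ℝ} (hc : 0 < c) (x : Γ) (h : ∀ i : ℕ, c ≤ f4 (α (x ^ i))) :
    ¬ Tendsto (fun N : ℕ => (∑ i ∈ Finset.range N, hgA (α (x ^ (i + 1)))) / N) atTop (𝓝 0) := by
  intro ht
  have h1 : ∀ i : ℕ, Real.sqrt (c / (m + 1)) ≤ hgA (α (x ^ (i + 1))) := by
    intro i
    refine Real.sqrt_le_iff.mpr ⟨Real.iSup_nonneg fun _ => norm_nonneg _, ?_⟩
    rw [div_le_iff₀ (by positivity)]
    exact (h _).trans (f4_le_hgA ha _)
  have h2 : Real.sqrt (c / (m + 1)) ≤ 0 := by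
    refine ge_of_tendsto ht ?_
    filter_upwards [eventually_gt_atTop 0] with N hN
    rw [le_div_iff₀ (by exact_mod_cast hN)]
    calc Real.sqrt (c / (m + 1)) * N = ∑ _i ∈ Finset.range N, Real.sqrt (c / (m + 1)) := by
          rw [Finset.sum_const, Finset.card_range, nsmul_eq_mul, mul_comm]
      _ ≤ _ := Finset.sum_le_sum fun i _ => h1 i
  have h3 : 0 < Real.sqrt (c / (m + 1)) := Real.sqrt_pos.mpr (by positivity)
  linarith

end hgt

/-- **Heights and subgroups.** If the heights vanish on average along one element of the image of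
`A`, then the fourth power sums decay along `H`, relative to `A`. -/
theorem sub_of_hv {Γ Λ : Type} [Group Γ] [Group Λ] (hG : Mt.ICC Γ) {n : ℕ} {p : Mt.Mat n Λ}
    (hp : Mt.IsProj p) (θ : Mt.AmpIso Γ Λ n p) {x : Γ} (hv : Mt.HV θ x) {H : Type} [Group H]
    (φ : H →* Γ) (A : Subgroup H) (hx : x ∈ A.map φ) : Mt.SubDecay θ φ A := by
  have ha := aframe_of hG (isProj_opM hp) (ofMt θ)
  have hno : ∀ T, ItwH (fun g => (ofMt θ).toFun (H160.St.u g)) (A.map φ) T → T = 0 := by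
    intro T hT
    by_contra hT0
    obtain ⟨c, hc, h1⟩ := lowerA ha hT hT0
    refine not_hv ha hc x (fun i => h1 _ (Subgroup.pow_mem _ hx i)) ?_
    refine hv.congr fun M => ?_
    congr 1
    refine Finset.sum_congr rfl fun i _ => ?_
    rw [ofMt_apply]
    exact (hgA_opM (θ.map_mem _ ((inL_iff _).mpr (lam_mem_LG _))).1).symm
  have hd := decay_hom ha φ hno
  have hF : ∀ g, f4 ((ofMt θ).toFun (H160.St.u g)) = Mt.four (θ.toFun (H160.St.u g)) := fun g => by
    rw [← four_eq ((inM_iff _).mpr (ha.eqv g)), ofMt_apply, four_opM]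
  have hFp : f4 (opM p) = Mt.four p := by
    rw [← four_eq (isProj_opM hp).mem, four_opM]
  simp only [hF, hFp] at hd
  exact hd

/-- **Subgroups containing a unipotent.** -/
theorem canon_or_decay {N : ℕ} (hN : 3 ≤ N)
    (Γ : Subgroup (Matrix.SpecialLinearGroup (Fin N) ℤ)) [Γ.FiniteIndex]
    (hΓ : ∀ g ∈ Γ, (g : Matrix (Fin N) (Fin N) ℤ) ≠ -1) {Λ : Type} [Group Λ] (hL : Mt.ICC Λ)
    {n : ℕ} {p : Mt.Mat n Λ} (hp : Mt.IsProj p) (θ : Mt.AmpIso Γ Λ n p) :
    (Mt.Canon θ ∧ Mt.trM p = 1) ∨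
    ∀ (x : Γ) (k : ℕ), x ^ k ≠ 1 → IsNilpotent ((((x ^ k : Γ) :
        SpecialLinearGroup (Fin N) ℤ) : Matrix (Fin N) (Fin N) ℤ) - 1) →
      Mt.HV θ x ∧ ∀ (H : Type) [Group H] (φ : H →* Γ) (A : Subgroup H), x ∈ A.map φ →
        Mt.SubDecay θ φ A := by
  rcases canon_or_heights hN Γ hΓ hL hp θ with h | h
  · exact Or.inl h
  · right
    intro x k hxk hnil
    have hv := h x k hxk hnil
    exact ⟨hv, fun H _ φ A hx => sub_of_hv (icc_of_fi (by omega : 2 ≤ N) Γ hΓ) hp θ hv φ A hx⟩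

end Vale.Agent.P092.H423
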