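import Vale.Agent.P092.H885.Final
import Vale.Agent.P092.H885.Conv
import Vale.Agent.P092.R3.H367.StAmp

/-!
The corner of the matrix unit `e_00`: `*`-isomorphisms onto this corner are `*`-isomorphisms
onto `L(Λ)`.
-/

set_option linter.all false

open scoped InnerProductSpace
open Filter Topology ContinuousLinearMap

namespace Vale.Agent.P092.H423

open Vale.Agent.P092.H160 Vale.Agent.P092.H160.St Vale.Agent.P092.H367.St

section row

variable {Λ : Type} [Group Λ] {n : ℕ}

theorem row_apply (j : Fin (n + 1)) (v : Ell2 Λ) : row j v = tv (dl j) v := rfl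

theorem row_adj_row (i j : Fin (n + 1)) :
    adjoint (row i) ∘L (row j : Ell2 Λ →L[ℂ] _) = if i = j then 1 else 0 := by
  ext1 v
  refine ext_inner_left ℂ fun w => ?_
  rw [comp_apply, adjoint_inner_right, row_apply, row_apply, inner_tv, inner_dl, dl_apply]
  split_ifs with h
  · rw [one_mul]; rfl
  · rw [zero_mul, zero_apply, inner_zero_right]

theorem row_adj_row_self (i : Fin (n + 1)) :
    adjoint (row i) ∘L (row i : Ell2 Λ →L[ℂ] _) = 1 := by
  rw [row_adj_row, if_pos rfl]

theorem row_adj_row_self_ap (i : Fin (n + 1)) (v : Ell2 Λ) : adjoint (row i) (row i v) = v :=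
  congrArg (fun S : Op Λ => S v) (row_adj_row_self i)

theorem row_adj_row_ne_ap {i j : Fin (n + 1)} (h : i ≠ j) (v : Ell2 Λ) :
    adjoint (row i) (row j v) = 0 := by
  have := congrArg (fun S : Op Λ => S v) (row_adj_row i j)
  rw [if_neg h] at this
  exact this

theorem corner_apply (A : Op Λ) (v : Ell2 (Fin (n + 1) × Λ)) :
    corner n A v = row 0 (A (adjoint (row 0) v)) := rfl

theorem ent_apply (T : Op (Fin (n + 1) × Λ)) (i j : Fin (n + 1)) (v : Ell2 Λ) :
    ent T i j v = adjoint (row i) (T (row j v)) := rfl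

theorem ent_corner_zero (A : Op Λ) : ent (corner n A) 0 0 = A := by
  ext1 v
  rw [ent_apply, corner_apply, row_adj_row_self_ap, row_adj_row_self_ap]

theorem ent_corner_ne (A : Op Λ) {i j : Fin (n + 1)} (h : ¬ (i = 0 ∧ j = 0)) :
    ent (corner n A) i j = 0 := by
  ext1 v
  rw [ent_apply, corner_apply]
  by_cases hj : j = 0
  · have hi : i ≠ 0 := fun hi => h ⟨hi, hj⟩
    rw [row_adj_row_ne_ap hi, zero_apply]
  · rw [row_adj_row_ne_ap (Ne.symm hj), map_zero, map_zero, map_zero, zero_apply]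

theorem inL_zero : InL (0 : Op Λ) := by
  intro S _
  change (0 : Op Λ) ∘L S = S ∘L (0 : Op Λ)
  rw [zero_comp, comp_zero]

theorem corner_one_mul (T : Op (Fin (n + 1) × Λ)) (v : Ell2 (Fin (n + 1) × Λ)) :
    corner n (u 1) v = row 0 (adjoint (row 0) v) := by
  rw [corner_apply, st_u, lam_one]
  rfl

theorem corner_mul (A B : Op Λ) : mul (corner n A) (corner n B) = corner n (mul A B) := by
  ext1 v
  change corner n A (corner n B v) = corner n (mul A B) v
  rw [corner_apply, corner_apply, row_adj_row_self_ap, corner_apply]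
  rfl

theorem corner_mem {S : Op Λ} (hS : InL S) : InC (corner n (u 1)) (corner n S) := by
  refine ⟨fun i j => ?_, ?_, ?_⟩
  · by_cases h : i = 0 ∧ j = 0
    · obtain ⟨rfl, rfl⟩ := h
      rw [ent_corner_zero]
      exact hS
    · rw [ent_corner_ne S h]
      exact inL_zero
  · rw [corner_mul, st_u, lam_one]
    rfl
  · rw [corner_mul, st_u, lam_one]
    rfl

theorem corner_ent {T : Op (Fin (n + 1) × Λ)} (h : InC (corner n (u 1)) T) :
    corner n (ent T 0 0) = T := by
  ext1 v
  have h1 : T v = T (corner n (u 1) v) := congrArg (fun S : Op (Fin (n + 1) × Λ) => S v) h.2.2.symm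
  have h2 : ∀ w, corner n (u 1) (T w) = T w := fun w =>
    congrArg (fun S : Op (Fin (n + 1) × Λ) => S w) h.2.1
  rw [corner_apply, ent_apply, h1, corner_one_mul T v]
  rw [← corner_one_mul T, h2]

theorem ent_mul {S T : Op (Fin (n + 1) × Λ)} (h : InC (corner n (u 1)) T) :
    ent (mul S T) 0 0 = mul (ent S 0 0) (ent T 0 0) := by
  ext1 v
  have h2 : ∀ w, corner n (u 1) (T w) = T w := fun w =>
    congrArg (fun S : Op (Fin (n + 1) × Λ) => S w) h.2.1
  change adjoint (row 0) (S (T (row 0 v))) = adjoint (row 0) (S (row 0 (adjoint (row 0) (T (row 0 v)))))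
  rw [← corner_one_mul T, h2]

theorem ent_add (S T : Op (Fin (n + 1) × Λ)) (i j : Fin (n + 1)) :
    ent (add S T) i j = add (ent S i j) (ent T i j) := by
  ext1 v
  change adjoint (row i) ((S + T) (row j v)) = (ent S i j + ent T i j) v
  rw [add_apply, add_apply, map_add]
  rfl

theorem isSmul_iff' {X : Type} (c : ℂ) (S T : Op X) : IsSmul c S T ↔ T = c • S := by
  constructor
  · intro h
    ext1 ξ
    exact h ξ
  · rintro rfl ξ
    rfl

theorem isAdj_iff' {X : Type} (S T : Op X) : IsAdj S T ↔ T = adjoint S := by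
  constructor
  · intro h
    have h2 := (ContinuousLinearMap.eq_adjoint_iff S T).mpr h
    rw [h2, adjoint_adjoint]
  · rintro rfl ξ η
    change ⟪S ξ, η⟫_ℂ = ⟪ξ, adjoint S η⟫_ℂ
    rw [adjoint_inner_right]

theorem ent_smul (c : ℂ) (S : Op (Fin (n + 1) × Λ)) (i j : Fin (n + 1)) :
    ent (c • S) i j = c • ent S i j := by
  ext1 v
  change adjoint (row i) (c • S (row j v)) = c • adjoint (row i) (S (row j v))
  rw [map_smul]

theorem corner_smul (c : ℂ) (A : Op Λ) : corner n (c • A) = c • corner n A := by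
  ext1 v
  change row 0 (c • A (adjoint (row 0) v)) = c • row 0 (A (adjoint (row 0) v))
  rw [map_smul]

theorem ent_adj (S : Op (Fin (n + 1) × Λ)) (i j : Fin (n + 1)) :
    ent (adjoint S) i j = adjoint (ent S j i) := by
  rw [ent, ent, adjoint_comp, adjoint_comp, adjoint_adjoint]
  rfl

theorem fourth_zero : H885.fourth (0 : Op Λ) = 0 := by
  unfold H885.fourth
  have h : ∀ s : Λ, ‖St.tr (St.mul (0 : Op Λ) (St.u s⁻¹))‖ ^ 4 = 0 := by
    intro s
    have : St.tr (St.mul (0 : Op Λ) (St.u s⁻¹)) = 0 := by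
      change ⟪(dl 1 : Ell2 Λ), (0 : Op Λ) (St.u s⁻¹ (dl 1))⟫_ℂ = 0
      rw [zero_apply, inner_zero_right]
    rw [this, norm_zero]
    norm_num
  simp only [h, tsum_zero]

theorem four_corner (A : Op Λ) : four (corner n A) = H885.fourth A := by
  unfold four
  rw [Finset.sum_eq_single 0, Finset.sum_eq_single 0, ent_corner_zero]
  · intro j _ hj
    rw [ent_corner_ne A fun h => hj h.2, fourth_zero]
  · intro h; exact absurd (Finset.mem_univ _) h
  · intro i _ hi
    refine Finset.sum_eq_zero fun j _ => ?_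
    rw [ent_corner_ne A fun h => hi h.1, fourth_zero]
  · intro h; exact absurd (Finset.mem_univ _) h

theorem tr_u (g : Λ) [Decidable (g = 1)] : St.tr (u g) = if g = 1 then 1 else 0 := by
  classical
  change ⟪(dl 1 : Ell2 Λ), lam g (dl 1)⟫_ℂ = _
  rw [lam_dl, mul_one, inner_dl, dl_apply]
  by_cases h : g = 1
  · rw [if_pos h, if_pos h.symm]
  · rw [if_neg h, if_neg (Ne.symm h)]

theorem fourth_u (g : Λ) : H885.fourth (u g) = 1 := by
  classical
  unfold H885.fourth
  have h : ∀ s : Λ, ‖St.tr (St.mul (St.u g) (St.u s⁻¹))‖ ^ 4 = if s = g then 1 else 0 := by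
    intro s
    have e : St.mul (St.u g) (St.u s⁻¹) = St.u (g * s⁻¹) := (lam_mul g s⁻¹).symm
    rw [e, tr_u]
    by_cases h : s = g
    · rw [if_pos h, if_pos (by rw [h, mul_inv_cancel]), norm_one, one_pow]
    · rw [if_neg h, if_neg (fun h1 => h (mul_inv_eq_one.mp h1).symm), norm_zero]
      norm_num
  simp only [h]
  exact tsum_ite_eq g _

theorem four_corner_one : four (corner n (u (1 : Λ))) = 1 := by
  rw [four_corner, fourth_u]

end row

section iso

variable {Γ Λ : Type} [Group Γ] [Group Λ] {n : ℕ} {p : Op (Fin (n + 1) × Λ)}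

theorem inC_of {p T : Op (Fin (n + 1) × Λ)} (hp : p = corner n (u 1)) (h : InC p T) :
    InC (corner n (u 1)) T := by
  rw [← hp]; exact h

/-- A `*`-isomorphism onto the corner of the matrix unit `e_00`, as a `*`-isomorphism onto
`L(Λ)`. -/
noncomputable def zeroIso (θ : AmpIso Γ Λ n p) (hp : p = corner n (u 1)) : StarIso Γ Λ where
  toFun T := ent (θ.toFun T) 0 0
  invFun S := θ.invFun (corner n S)
  map_mem T hT := (θ.map_mem T hT).1 0 0
  inv_mem T hT := θ.inv_mem _ (by rw [hp]; exact corner_mem hT)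
  left_inv T hT := by
    rw [corner_ent (inC_of hp (θ.map_mem T hT)), θ.left_inv T hT]
  right_inv T hT := by
    rw [θ.right_inv _ (by rw [hp]; exact corner_mem hT), ent_corner_zero]
  map_add S T hS hT := by rw [θ.map_add S T hS hT, ent_add]
  map_smul c S T hS hT h := by
    have h1 := (isSmul_iff' _ _ _).mp (θ.map_smul c S T hS hT h)
    rw [isSmul_iff', h1, ent_smul]
  map_mul S T hS hT := by
    rw [θ.map_mul S T hS hT, ent_mul (inC_of hp (θ.map_mem T hT))]
  map_adj S T hS hT h := by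
    have h1 := (isAdj_iff' _ _).mp (θ.map_adj S T hS hT h)
    rw [isAdj_iff', h1, ent_adj]

theorem zeroIso_u (θ : AmpIso Γ Λ n p) (hp : p = corner n (u 1)) (g : Γ) :
    (zeroIso θ hp).toFun (u g) = ent (θ.toFun (u g)) 0 0 := rfl

theorem inL_u {G : Type} [Group G] (g : G) : InL (u g) := by
  intro S hS
  exact (hS g).symm

theorem theta_eq (θ : AmpIso Γ Λ n p) (hp : p = corner n (u 1)) (g : Γ) :
    θ.toFun (u g) = corner n ((zeroIso θ hp).toFun (u g)) := by
  exact (corner_ent (inC_of hp (θ.map_mem (u g) (inL_u g)))).symm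

theorem four_theta (θ : AmpIso Γ Λ n p) (hp : p = corner n (u 1)) (g : Γ) :
    four (θ.toFun (u g)) = H885.fourth ((zeroIso θ hp).toFun (u g)) := by
  rw [theta_eq θ hp, four_corner]

theorem canonical_of_zero (θ : AmpIso Γ Λ n p) (hp : p = corner n (u 1))
    (h : St.Canonical (zeroIso θ hp)) : CanonicalAmp θ := by
  obtain ⟨δ, χ, w, w', h1, h2, h3, h4, h5⟩ := h
  refine ⟨hp, δ, χ, w, w', h1, h2, h3, h4, fun g => ?_⟩
  rw [isSmul_iff', theta_eq θ hp, (isSmul_iff' _ _ _).mp (h5 g), corner_smul]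

theorem zero_of_canonical (θ : AmpIso Γ Λ n p) (hp : p = corner n (u 1))
    (h : CanonicalAmp θ) : St.Canonical (zeroIso θ hp) := by
  obtain ⟨-, δ, χ, w, w', h1, h2, h3, h4, h5⟩ := h
  refine ⟨δ, χ, w, w', h1, h2, h3, h4, fun g => ?_⟩
  rw [isSmul_iff', zeroIso_u, (isSmul_iff' _ _ _).mp (h5 g), ent_smul, ent_corner_zero]

theorem canonical_zero_iff (θ : AmpIso Γ Λ n p) (hp : p = corner n (u 1)) :
    St.Canonical (zeroIso θ hp) ↔ CanonicalAmp θ :=
  ⟨canonical_of_zero θ hp, zero_of_canonical θ hp⟩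

/-- The case of the matrix unit `e_00`. -/
theorem zero_case (hΓ : ∀ g : Γ, g ≠ 1 → Set.Infinite {y : Γ | ∃ h, y = h * g * h⁻¹})
    (θ : AmpIso Γ Λ n p) (hp : p = corner n (u 1)) (hnc : ¬ CanonicalAmp θ) :
    (∀ (Q : Finset Γ) (ε : ℝ), H885.IsKazhdanPair Γ Q ε →
      (∃ s ∈ Q, four (θ.toFun (u s)) ≤ 1 - ε ^ 2 / 2) ∧ ∀ (a b : Γ) (k : ℕ),
        (H885.avg Q)^[k] (fun g => four (θ.toFun (u (a * g * b)))) 1 ≤
          (1 - ε ^ 2 / (4 * Q.card)) ^ k) ∧
    (∀ Q : Finset Γ, Q.Nonempty → Subgroup.closure (Q : Set Γ) = ⊤ → ∀ a b : Γ,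
      Tendsto (fun k : ℕ => (H885.avg Q)^[k] (fun g => four (θ.toFun (u (a * g * b)))) 1)
        atTop (𝓝 0)) := by
  have hnc' : ¬ St.Canonical (zeroIso θ hp) := fun h => hnc (canonical_of_zero θ hp h)
  simp only [four_theta θ hp]
  exact ⟨fun Q ε hK => H885.icc_kazhdan hΓ (zeroIso θ hp) hnc' hK,
    fun Q hQ hgen a b => H885.icc_soft hΓ (zeroIso θ hp) hnc' hQ hgen a b⟩

/-- Canonical isomorphisms have fourth power sums bounded below. -/
theorem lower_of_canonicalAmp
    (hΓ : ∀ g : Γ, g ≠ 1 → Set.Infinite {y : Γ | ∃ h, y = h * g * h⁻¹})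
    (θ : AmpIso Γ Λ n p) (h : CanonicalAmp θ) :
    ∃ c : ℝ, 0 < c ∧ ∀ g, c ≤ four (θ.toFun (u g)) := by
  have hp := h.1
  simp only [four_theta θ hp]
  exact H885.lower_of_canonical hΓ (zeroIso θ hp) (zero_of_canonical θ hp h)

end iso

end Vale.Agent.P092.H423
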